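import Vale.Agent.P207.N3.H229.PFDens
import Vale.Agent.P207.N3.H722.PFOf

/-!
# P207, line N3, package PF3: the two densities at a crossing, and the record `PFIn`
-/

open Set Filter Topology Metric MeasureTheory
open scoped ContDiff

set_option linter.unusedSectionVars false

noncomputable section

namespace Vale.Agent.P207.N3.H229

open Vale.Agent.P207.N3.Ten
open Vale.Agent.P207.N3.H722 (GeoIn HessIn invThm flip_neg flip_pos)
open Vale.Agent.P207.N3.H722.GeoIn (xip)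
open Vale.Agent.P207.N3.H76 (pk tl e0 sg)

variable {Γ X B : Type} [Group Γ] [MetricSpace X] [ProperSpace X] [MulAction Γ X]
  [IsIsometricSMul Γ X] [TopologicalSpace B] [CompactSpace B] [T2Space B] [MulAction Γ B]
  [ContinuousConstSMul Γ B] {L : Leaf Γ X B} [MeasurableSpace B] [BorelSpace B]

namespace Dens

variable {A : Area L} {x0 : X} (S : Dens A x0)

theorem det_frame_ne {y t : E2} {z : X} (hz : (y, t) ∈ S.W) (hem : L.em z = S.lab y)
    (hm : S.ψ y t ∈ L.dm (S.fr y) z) :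
    (fderiv ℝ (fun t' => L.τ (S.fr y) z (S.ψ y t')) t).det ≠ 0 := by
  have hem' : L.em (S.fr y) = L.em z := by rw [S.em_fr, hem]
  have d1 : DifferentiableAt ℝ (S.ψ y) t := S.ψ_jc.differentiableAt (p := (y, t)) hz
  rw [fderiv_fun_comp t (tau_diff hem' hm) d1, det_comp2]
  exact mul_ne_zero (s_eq (A := A) hem' hm).1 (S.det_ne hz)

end Dens

variable {V : Type} [NormedAddCommGroup V] [NormedSpace ℝ V] [FiniteDimensional ℝ V]
  (I : GeoIn L V) (A : Area L)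

/-- the determinant of a symmetric form read in another basis -/
theorem det_form {S U T : E2 →L[ℝ] E2} {r : ℝ}
    (h : ∀ v w, inner ℝ (S v) w = inner ℝ (U (r • T v)) (r • T w)) :
    S.det = r ^ 4 * U.det * T.det ^ 2 := by
  have h1 : S = ContinuousLinearMap.adjoint (r • T) ∘L (U ∘L (r • T)) := by
    ext1 v
    refine ext_inner_right ℝ fun w => ?_
    rw [h]
    change _ = inner ℝ (ContinuousLinearMap.adjoint (r • T) (U (r • T v))) w
    rw [ContinuousLinearMap.adjoint_inner_left]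
    rfl
  have h2 : (ContinuousLinearMap.adjoint (r • T)).det = (r • T).det :=
    det_adjoint2 _ _ fun v w => ContinuousLinearMap.adjoint_inner_left _ _ _
  have h3 : (r • T).det = r ^ 2 * T.det := by
    rw [det_E2, det_E2]
    simp only [smul_apply, PiLp.smul_apply, smul_eq_mul]
    ring
  rw [h1, det_comp2, det_comp2, h2, h3]
  ring

/-- the form `D² (b_ξ + b_η)` vanishes on the direction of the geodesic -/
theorem snd_e0 (z : X) (v : V) :
    fderiv ℝ (fderiv ℝ (fun q => I.b (L.em z) q + I.b (L.ep z) q)) (I.S.ft z) (I.E z e0) v = 0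
    ∧ fderiv ℝ (fderiv ℝ (fun q => I.b (L.em z) q + I.b (L.ep z) q)) (I.S.ft z) v (I.E z e0)
      = 0 := by
  set f : V → ℝ := fun q => I.b (L.em z) q + I.b (L.ep z) q with hf
  have hbs : ∀ ζ, ContDiff ℝ ∞ (I.b ζ) := fun ζ => by
    rw [← contDiffOn_univ]
    exact I.b_jc.smooth ζ
  have hfs : ContDiff ℝ ∞ f := (hbs _).add (hbs _)
  have hf1 : ContDiff ℝ ∞ (fderiv ℝ f) := hfs.fderiv_right (by simp)
  have hd : ∀ q, fderiv ℝ f q = I.G q (I.vel (L.em z) q + I.vel (L.ep z) q) := fun q => by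
    have h1 := ((I.b_hasFDerivAt invThm (L.em z) q).add
      (I.b_hasFDerivAt invThm (L.ep z) q)).fderiv
    change fderiv ℝ f q = _ at h1
    rw [h1, ← map_add]
  have h0 : ∀ s : ℝ, fderiv ℝ f (I.S.ft (L.φ s z)) = 0 := by
    intro s
    have h1 : I.vel (L.em z) (I.S.ft (L.φ s z)) = I.E (L.φ s z) e0 := by
      rw [← I.vel_eq invThm, L.em_φ]
    have h2 : I.vel (L.ep z) (I.S.ft (L.φ s z)) = -I.E (L.φ s z) e0 := by
      rw [← GeoIn.E_flip_e0, ← I.vel_eq invThm, GeoIn.em_flip, GeoIn.ep_φ, I.ft_flip]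
    rw [hd, h1, h2, add_neg_cancel, map_zero]
  have h1 : HasDerivAt (fun s => fderiv ℝ f (I.S.ft (L.φ s z)))
      (fderiv ℝ (fderiv ℝ f) (I.S.ft (L.φ 0 z)) (I.E (L.φ 0 z) e0)) 0 :=
    (hf1.differentiable (by simp)).differentiableAt.hasFDerivAt.comp_hasDerivAt (0 : ℝ)
      (I.hasDerivAt_ft z 0)
  have h2 : HasDerivAt (fun s => fderiv ℝ f (I.S.ft (L.φ s z))) (0 : V →L[ℝ] ℝ) 0 := by
    have : (fun s => fderiv ℝ f (I.S.ft (L.φ s z))) = fun _ => (0 : V →L[ℝ] ℝ) := funext h0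
    rw [this]
    exact hasDerivAt_const _ _
  have h3 := h1.unique h2
  rw [L.φ_zero] at h3
  have h4 : fderiv ℝ (fderiv ℝ f) (I.S.ft z) (I.E z e0) v = 0 := by rw [h3]; rfl
  refine ⟨h4, ?_⟩
  have h5 : IsSymmSndFDerivAt ℝ f (I.S.ft z) :=
    hfs.contDiffAt.isSymmSndFDerivAt (by
      rw [minSmoothness_of_isRCLikeNormedField]
      exact WithTop.coe_le_coe.2 (le_top : (2 : ℕ∞) ≤ ⊤))
  rw [h5.eq, h4]

/-- the frame `z` at the point `t` of the disc, on the leaf `y` -/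
theorem frame_at' {x₀ : X} (S : Dens A x₀) {y t : E2} (hz : (y, t) ∈ S.W)
    (htR : t ∈ ball (0 : E2) I.S.R)
    (hen : ∀ t', S.en y t' = I.S.line (S.lab y) (I.D x₀ t'))
    (hu : S.u y t = I.b (S.lab y) (I.D x₀ t)) {z : X} (h1 : L.em z = S.lab y)
    (h2 : I.S.ft z = I.D x₀ t) :
    ∃ T : E2 →L[ℝ] E2, T.det ≠ 0 ∧
      S.ρ y t = Real.log |T.det| + Real.log (A.s z 0) ∧
      ∀ v, ∃ s, I.J x₀ t v = I.E z (pk s (I.r₀ • T v)) := by
  have hA0 : I.S.A z (0, 0) = I.S.A x₀ (0, t) := by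
    have h3 : I.S.A z (0, 0) = I.S.ft z := I.S.A_zero z
    rw [h3, h2]
    rfl
  obtain ⟨T, G, hG, m1, m2, m3⟩ := I.S.cross invThm (x₀ := x₀) (y₀ := z) (u₀ := t) htR
    (s₀ := 0) (v₀ := 0) I.S.zero_mem hA0
  obtain ⟨g, hg⟩ : ∃ g : E2 → ℝ × E2, g = G (x₀, z) := ⟨_, rfl⟩
  rw [← hg] at m2
  have hgd : DifferentiableAt ℝ g t := by
    rw [hg]
    exact (hG.contDiffAt m1).differentiableAt (by simp)
  have m3' : ∀ t', ((x₀, z), t') ∈ T → (g t').2 ∈ ball (0 : E2) I.S.R ∧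
      I.S.A z (g t') = I.D x₀ t' := by
    intro t' h
    rw [hg]
    exact ⟨(m3 _ h).2.1, (m3 _ h).2.2⟩
  have hevT : ∀ᶠ t' in 𝓝 t, ((x₀, z), t') ∈ T := (isOpen_slice hG.isOpen (x₀, z)).mem_nhds m1
  have hg2 : (g t).2 = 0 := by rw [m2]
  have hev3 : ∀ᶠ t' in 𝓝 t, (g t').2 ∈ ball (0 : E2) 3 := by
    have h3 : ContinuousAt (fun t' => (g t').2) t :=
      continuous_snd.continuousAt.comp hgd.continuousAt
    refine h3.tendsto.eventually (isOpen_ball.mem_nhds ?_)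
    rw [hg2]
    exact mem_ball0
  have hevW : ∀ᶠ t' in 𝓝 t, (y, t') ∈ S.W := S.W_ev hz
  -- the label of the point `t'` in the chart of `z`
  have key : ∀ t', ((x₀, z), t') ∈ T → (g t').2 ∈ ball (0 : E2) 3 → (y, t') ∈ S.W →
      S.ψ y t' ∈ L.dm (S.fr y) z ∧ L.τ (S.fr y) z (S.ψ y t') = (g t').2 := by
    intro t' a1 a2 a3
    obtain ⟨a4, a5⟩ := m3' _ a1
    have a6 : I.S.A z ((g t').1, (g t').2) = I.D x₀ t' := a5
    rw [I.S.A_psi z _ _ a4, I.em_eq] at a6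
    have a7 : L.e z (g t').2 = S.en y t' := by
      rw [← I.e_eq z _ (ball_sub a2), H459.Slice.e, I.em_eq, hen, ← h1, I.S.line_iff]
      exact ⟨_, a6.symm⟩
    have a8 : L.e (S.fr y) (S.ψ y t') = S.en y t' := S.ψ_e (y, t') a3
    have a9 : L.e z (g t').2 = L.e (S.fr y) (S.ψ y t') := by rw [a7, a8]
    exact ⟨mem_dm (S.ψ_mem (y, t') a3) a2 a9, tau_eq (ball_sub a2) a9⟩
  obtain ⟨hk1, hk2⟩ := key t m1 hev3.self_of_nhds hz
  have hev : (fun t' => L.τ (S.fr y) z (S.ψ y t')) =ᶠ[𝓝 t] fun t' => (g t').2 := by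
    filter_upwards [hevT, hev3, hevW] with t' b1 b2 b3 using (key t' b1 b2 b3).2
  have hT : fderiv ℝ (fun t' => L.τ (S.fr y) z (S.ψ y t')) t
      = (ContinuousLinearMap.snd ℝ ℝ E2).comp (fderiv ℝ g t) := by
    rw [hev.fderiv_eq]
    exact (hasFDerivAt_snd.comp t hgd.hasFDerivAt).fderiv
  refine ⟨fderiv ℝ (fun t' => L.τ (S.fr y) z (S.ψ y t')) t, S.det_frame_ne hz h1 hk1, ?_, ?_⟩
  · rw [S.ρ_frame hz h1 hk1, hk2, hg2]
    have b2 : S.u y t = L.lv z := by rw [hu, ← I.b_lv, h1, h2]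
    rw [b2, sub_self, mul_zero, add_zero]
  · intro v
    refine ⟨(fderiv ℝ g t v).1, ?_⟩
    rw [hT]
    change _ = I.E z (pk (fderiv ℝ g t v).1 (I.r₀ • (fderiv ℝ g t v).2))
    rw [← I.A_fderiv]
    have c1 : HasFDerivAt (I.S.A z) (fderiv ℝ (I.S.A z) 0) (g t) := by
      rw [m2]
      exact (I.S.A_jc.differentiableAt (I.S.mem_S z 0 I.S.zero_mem)).hasFDerivAt
    have c2 := c1.comp t hgd.hasFDerivAt
    have c3 : I.D x₀ =ᶠ[𝓝 t] I.S.A z ∘ g := by
      filter_upwards [hevT] with t' b1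
      exact (m3' _ b1).2.symm
    rw [GeoIn.J, c3.fderiv_eq, c2.fderiv]
    rfl

theorem frame_at {x₀ : X} (co : Co A x₀) {lab : E2 → B} (hc : Continuous lab)
    (h0 : lab 0 = L.em x₀) (hne : ∀ y, lab y ≠ L.ep x₀) {y t : E2}
    (hz : (y, t) ∈ (mkDens I A co hc h0 hne).W) {z : X} (h1 : L.em z = lab y)
    (h2 : I.S.ft z = I.D x₀ t) :
    ∃ T : E2 →L[ℝ] E2, T.det ≠ 0 ∧
      (mkDens I A co hc h0 hne).ρ y t = Real.log |T.det| + Real.log (A.s z 0) ∧
      ∀ v, ∃ s, I.J x₀ t v = I.E z (pk s (I.r₀ • T v)) :=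
  frame_at' I A (mkDens I A co hc h0 hne) hz
    ((exists_psi I hc h0 hne).choose_spec.choose_spec.2.2.2.1 (y, t) hz).1 (fun _ => rfl) rfl h1 h2

variable (o : Orb L) (n : Nor L o) (n' : Nor L o.flip) (M : E2 ≃L[ℝ] E2)

/-- the derivatives of the discs of an orbit and its reverse agree -/
theorem J_flip {t : E2} (ht : t ∈ ball (0 : E2) I.S.R) : I.J (L.flip o.x) t = I.J o.x t := by
  have h : I.D (L.flip o.x) =ᶠ[𝓝 t] I.D o.x := by
    filter_upwards [isOpen_ball.mem_nhds ht] with s hs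
    exact D_flip I o hs
  rw [GeoIn.J, GeoIn.J, h.fderiv_eq]

/-- **the product of the densities at a crossing** -/
theorem star_at {Mt : Metr L} (H : HessIn I Mt)
    (norm : ∀ x, A.s x 0 * A.s (L.flip x) 0 = I.r₀ ^ 4 * (Mt.U x + Mt.U (L.flip x)).det)
    {x y t : E2} (hy : (y, t) ∈ WY I A o n n' M) (hx : (x, t) ∈ WX I A o n n' M)
    (ht : t ∈ ball (0 : E2) I.S.R)
    (hv : I.vel (xip o n' M y) (I.D o.x t) + I.vel (n.inv x) (I.D o.x t) = 0) :
    0 < (hess (I.uu o n' M y) t + hess (I.ss o n x) t).det ∧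
      Real.log (hess (I.uu o n' M y) t + hess (I.ss o n x) t).det
        = rY I A o n n' M y t + rX I A o n n' M x t := by
  obtain ⟨z, h1, h2, h3⟩ := I.exists_frame (xip o n' M y) (I.D o.x t)
  have h4 : I.S.line (xip o n' M y) (I.D o.x t) = n.inv x := by
    apply I.vel_inj invThm (q := I.D o.x t)
    rw [I.vel_line invThm]
    exact neg_eq_of_add_eq_zero_right hv
  rw [h4] at h3
  obtain ⟨T, d1, r1, j1⟩ := frame_at I A (x₀ := o.x) _ _ _ _ hy h1 h2
  obtain ⟨T', d2, r2, j2⟩ := frame_at I A (x₀ := L.flip o.x) _ _ _ _ hx (z := L.flip z)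
    (by rw [GeoIn.em_flip, h3]) (by rw [I.ft_flip, h2, D_flip I o ht])
  have hTT : T' = T := by
    ext1 v
    obtain ⟨s, hs⟩ := j1 v
    obtain ⟨s', hs'⟩ := j2 v
    rw [J_flip I o ht, hs, I.E_flip, H76.sg_pk] at hs'
    have := (I.E_bij z).1 hs'
    rw [H76.pk_inj] at this
    have h5 := congrArg (fun u : E2 => I.r₀⁻¹ • u) this.2
    simp only [smul_smul, inv_mul_cancel₀ I.r₀_pos.ne', one_smul] at h5
    exact h5.symm
  rw [hTT] at r2
  have hform : ∀ v w, inner ℝ ((hess (I.uu o n' M y) t + hess (I.ss o n x) t) v) w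
      = inner ℝ ((Mt.U z + Mt.U (L.flip z)) (I.r₀ • T v)) (I.r₀ • T w) := by
    intro v w
    have h6 := I.hess_disc o.x (xip o n' M y) (n.inv x) ht hv v w
    change inner ℝ (hess (I.uu o n' M y) t v + hess (I.ss o n x) t v) w = _
    have h7 : inner ℝ (hess (I.uu o n' M y) t v + hess (I.ss o n x) t v) w
        = fderiv ℝ (fderiv ℝ (fun q => I.b (xip o n' M y) q + I.b (n.inv x) q)) (I.D o.x t)
          (I.J o.x t v) (I.J o.x t w) := h6
    rw [h7, ← h1, ← h3, ← h2]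
    obtain ⟨s, hs⟩ := j1 v
    obtain ⟨s', hs'⟩ := j1 w
    rw [hs, hs']
    have h8 : ∀ (s : ℝ) (u : E2), pk s u = s • e0 + pk 0 u := fun s u => by
      rw [← H76.pk_zero_right, ← H76.pk_add, add_zero, zero_add]
    rw [h8 s, h8 s', map_add, map_add, map_smul, map_smul, map_add, map_add, map_smul, map_smul,
      add_apply, add_apply, smul_apply, smul_apply, (snd_e0 I z _).1, (snd_e0 I z _).1,
      (snd_e0 I z _).2, H.hess]
    simp
  have hdet := det_form hform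
  have hs1 := A.s_pos z 0 mem_ball0
  have hs2 := A.s_pos (L.flip z) 0 mem_ball0
  have hdet' : (hess (I.uu o n' M y) t + hess (I.ss o n x) t).det
      = A.s z 0 * A.s (L.flip z) 0 * T.det ^ 2 := by
    rw [hdet, norm z]
  have hT2 : 0 < T.det ^ 2 := by positivity
  refine ⟨by rw [hdet']; positivity, ?_⟩
  rw [hdet', Real.log_mul (mul_pos hs1 hs2).ne' hT2.ne', Real.log_mul hs1.ne' hs2.ne',
    Real.log_pow]
  change _ = (dY I A o n n' M).ρ y t + (dX I A o n n' M).ρ x t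
  have r1' : (dY I A o n n' M).ρ y t = _ := r1
  have r2' : (dX I A o n n' M).ρ x t = _ := r2
  rw [r1', r2', Real.log_abs]
  push_cast
  ring

/-- field `star` of `PFIn` -/
theorem star {Mt : Metr L} (H : HessIn I Mt)
    (norm : ∀ x, A.s x 0 * A.s (L.flip x) 0 = I.r₀ ^ 4 * (Mt.U x + Mt.U (L.flip x)).det) :
    ∀ᶠ z in 𝓝 (0 : (E2 × E2) × E2),
      gradient (I.uu o n' M z.1.2) z.2 + gradient (I.ss o n z.1.1) z.2 = 0 →
      0 < (hess (I.uu o n' M z.1.2) z.2 + hess (I.ss o n z.1.1) z.2).det ∧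
      Real.log (hess (I.uu o n' M z.1.2) z.2 + hess (I.ss o n z.1.1) z.2).det
        = rY I A o n n' M z.1.2 z.2 + rX I A o n n' M z.1.1 z.2 := by
  have cy : ContinuousAt (fun z : (E2 × E2) × E2 => ((z.1.2, z.2) : E2 × E2)) 0 := by fun_prop
  have cx : ContinuousAt (fun z : (E2 × E2) × E2 => ((z.1.1, z.2) : E2 × E2)) 0 := by fun_prop
  have ey := cy.tendsto.eventually (I.vv_lf o n' M)
  have ex := cx.tendsto.eventually (I.vv_lf' o n)
  have wy : ∀ᶠ z in 𝓝 (0 : (E2 × E2) × E2), (z.1.2, z.2) ∈ WY I A o n n' M :=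
    cy.tendsto.eventually ((dY I A o n n' M).W_nhds (WY_mem I A o n n' M))
  have wx : ∀ᶠ z in 𝓝 (0 : (E2 × E2) × E2), (z.1.1, z.2) ∈ WX I A o n n' M :=
    cx.tendsto.eventually ((dX I A o n n' M).W_nhds (WX_mem I A o n n' M))
  have hb := cy.tendsto.eventually I.ev_ball
  filter_upwards [ey, ex, wy, wx, hb] with z h1 h2 h3 h4 h5 h6
  refine star_at I A o n n' M H norm h3 h4 h5 ?_
  have h7 : lf (I.uu o n' M) (z.1.2, z.2) = lf' (I.ss o n) (z.1.1, z.2) := by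
    rw [lf, lf', eq_neg_of_add_eq_zero_left h6]
  rw [h7, h2] at h1
  rw [← h1, neg_add_cancel]

/-- **the input of the product formula, from the geometry of the suite** -/
def pfIn (norm : ∀ v w, inner ℝ (fderiv ℝ (GeoIn.th o n) 0 v) (fderiv ℝ (GeoIn.th' o n' M) 0 w)
      = inner ℝ (hess (I.uu o n' M 0) 0 v + hess (I.ss o n 0) 0 v) w)
    {Mt : Metr L} (H : HessIn I Mt)
    (hs : ∀ x, A.s x 0 * A.s (L.flip x) 0 = I.r₀ ^ 4 * (Mt.U x + Mt.U (L.flip x)).det) :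
    PFIn n.N.fn (GeoIn.N' o n' M) A.h :=
  H722.pfOf I o n n' M A.h (rY I A o n n' M) (rX I A o n n' M) (WY I A o n n' M)
    (WX I A o n n' M) (WY_mem I A o n n' M) (WX_mem I A o n n' M) (rY_jc I A o n n' M)
    (rX_jc I A o n n' M) norm (star I A o n n' M H hs) (dens_Y I A o n n' M)
    (dens_X I A o n n' M) (rho_inv_Y I A o n n' M) (rho_inv_X I A o n n' M)
    (hol_Y I A o n n' M) (hol_X I A o n n' M)

theorem exists_pfIn {Mt : Metr L} (H : HessIn I Mt)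
    (hs : ∀ x, A.s x 0 * A.s (L.flip x) 0 = I.r₀ ^ 4 * (Mt.U x + Mt.U (L.flip x)).det) :
    ∃ (M : E2 ≃L[ℝ] E2) (P : PFIn n.N.fn (GeoIn.N' o n' M) A.h),
      P.u = I.uu o n' M ∧ P.s = I.ss o n ∧ P.xh = I.xh o n ∧ P.yh = I.yh o n' M ∧
      P.ρ = rY I A o n n' M ∧ P.ρ' = rX I A o n n' M ∧ P.ϑ = GeoIn.th o n ∧
      P.ϑ' = GeoIn.th' o n' M ∧ P.P = I.PP o ∧ P.ℓ = I.pl o := by
  obtain ⟨M, hM⟩ := I.exists_M o n n' H
  exact ⟨M, pfIn I A o n n' M hM H hs, rfl, rfl, rfl, rfl, rfl, rfl, rfl, rfl, rfl, rfl⟩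

end Vale.Agent.P207.N3.H229
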