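import Vale.Agent.P207.N3.H266.TauB
import Vale.Agent.P207.N3.Top.Defs

/-!
# P207, line N3, package PF3: topology and measure of the leaf charts

* `inv_cont` : `(x, η) ↦ (e x)⁻¹ η` is continuous on `{η ∈ e x '' closedBall 0 3}`;
* `D_cont` : the function `D` of `Area` is continuous off the diagonal;
* `integral_chart` : the measure `ν` in the chart `e x`, for integrals of functions.
-/

open Set Filter Topology Metric MeasureTheory
open scoped ContDiff

noncomputable section

namespace Vale.Agent.P207.N3.H229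

open Vale.Agent.P207.N3.Ten

variable {Γ X B : Type} [Group Γ] [MetricSpace X] [ProperSpace X] [MulAction Γ X]
  [IsIsometricSMul Γ X] [TopologicalSpace B] [CompactSpace B] [T2Space B] [MulAction Γ B]
  [ContinuousConstSMul Γ B] (L : Leaf Γ X B)

/-! ### the inverse of the charts -/

/-- `(x, u) ↦ (x, e x u)` -/
def em2 : X × closedBall (0 : E2) 3 → X × B := fun p => (p.1, L.e p.1 p.2)

theorem em2_cont : Continuous (em2 L) := by
  refine continuous_fst.prodMk ?_
  have h := continuousOn_iff_continuous_restrict.1 L.e_cont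
  have h2 : Continuous fun p : X × closedBall (0 : E2) 3 =>
      (⟨(p.1, (p.2 : E2)), ⟨mem_univ _, p.2.2⟩⟩ : ((univ : Set X) ×ˢ closedBall (0 : E2) 3)) := by
    fun_prop
  exact h.comp h2

theorem em2_inj : Function.Injective (em2 L) := by
  rintro ⟨x, u⟩ ⟨y, v⟩ h
  simp only [em2, Prod.mk.injEq] at h
  obtain ⟨rfl, h2⟩ := h
  have := L.e_inj x u.2 v.2 h2
  rw [Subtype.ext this]

theorem em2_closed : IsClosedEmbedding (em2 L) := by
  have hp : IsProperMap (Prod.fst : X × closedBall (0 : E2) 3 → X) := isProperMap_fst_of_compactSpace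
  have h1 : IsProperMap (em2 L) :=
    isProperMap_of_comp_of_t2 (em2_cont L) continuous_fst (g := (Prod.fst : X × B → X)) hp
  exact IsClosedEmbedding.of_continuous_injective_isClosedMap (em2_cont L) (em2_inj L)
    h1.isClosedMap

/-- the inverse of the chart `e x` -/
def ei (x : X) (η : B) : E2 := Function.invFunOn (L.e x) (closedBall (0 : E2) 3) η

variable {L}

theorem ei_eq {x : X} {u : E2} (hu : u ∈ closedBall (0 : E2) 3) : ei L x (L.e x u) = u := by
  have h1 : L.e x u ∈ L.e x '' closedBall 0 3 := ⟨u, hu, rfl⟩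
  exact L.e_inj x (Function.invFunOn_mem h1) hu (Function.invFunOn_eq h1)

theorem ei_mem {x : X} {η : B} (h : η ∈ L.e x '' closedBall (0 : E2) 3) :
    ei L x η ∈ closedBall (0 : E2) 3 := Function.invFunOn_mem h

theorem e_ei {x : X} {η : B} (h : η ∈ L.e x '' closedBall (0 : E2) 3) :
    L.e x (ei L x η) = η := Function.invFunOn_eq h

theorem ei_mem_ball {x : X} {η : B} {r : ℝ} (hr : r ≤ 3) (h : η ∈ L.e x '' ball (0 : E2) r) :
    ei L x η ∈ ball (0 : E2) r := by
  obtain ⟨u, hu, rfl⟩ := h
  rwa [ei_eq (ball_subset_closedBall (ball_subset_ball hr hu))]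

theorem tau_eq_ei (x y : X) (u : E2) : L.τ x y u = ei L y (L.e x u) := rfl

variable (L)

theorem inv_cont : ContinuousOn (fun p : X × B => ei L p.1 p.2)
    {p | p.2 ∈ L.e p.1 '' closedBall 0 3} := by
  have h1 := em2_closed L
  have h2 : {p : X × B | p.2 ∈ L.e p.1 '' closedBall 0 3} = range (em2 L) := by
    ext p
    constructor
    · rintro ⟨u, hu, h⟩
      exact ⟨(p.1, ⟨u, hu⟩), by simp [em2, h]⟩
    · rintro ⟨⟨x, u⟩, rfl⟩
      exact ⟨u, u.2, rfl⟩
  rw [h2, continuousOn_iff_continuous_restrict]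
  have h3 : Continuous fun q : range (em2 L) =>
      (((h1.isEmbedding.toHomeomorph).symm q).2 : E2) :=
    continuous_subtype_val.comp (continuous_snd.comp h1.isEmbedding.toHomeomorph.symm.continuous)
  convert h3 using 1
  funext q
  obtain ⟨⟨q1, q2⟩, ⟨⟨x, u⟩, hq⟩⟩ := q
  simp only [em2, Prod.mk.injEq] at hq
  obtain ⟨rfl, rfl⟩ := hq
  have h4 : (h1.isEmbedding.toHomeomorph).symm ⟨(x, L.e x u), ⟨(x, u), rfl⟩⟩ = (x, u) := by
    rw [Homeomorph.symm_apply_eq]
    rfl
  simp only [restrict_apply, h4]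
  exact ei_eq u.2

end Vale.Agent.P207.N3.H229
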