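import Vale.Agent.P207.N3.H229.HolD
import Vale.Agent.P207.N3.H854.Dens
import Vale.Agent.P207.N3.Top.Orb

/-!
# P207, line N3, package PF3: the Margulis area is constant in the normal coordinate
-/

open Set Filter Topology Metric MeasureTheory
open scoped ContDiff

set_option linter.unusedSectionVars false

noncomputable section

namespace Vale.Agent.P207.N3.H229

variable {Γ X B : Type} [Group Γ] [MetricSpace X] [ProperSpace X] [MulAction Γ X]
  [IsIsometricSMul Γ X] [TopologicalSpace B] [CompactSpace B] [T2Space B] [MulAction Γ B]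
  [ContinuousConstSMul Γ B] {L : Leaf Γ X B} [MeasurableSpace B] [BorelSpace B]

/-- a linear change of a normal coordinate is a coordinate in which the area is constant -/
def coNor (A : Area L) {o : Orb L} (n : Nor L o) (M : E2 ≃L[ℝ] E2) : Co A o.x where
  x η := M (n.x η)
  inv z := n.inv (M.symm z)
  inv_cont := n.inv_cont.comp M.symm.continuous
  inv_zero := by
    have h1 : n.inv (n.x o.pos) = o.pos := n.inv_left _ (o.neg_ne_pos).symm
    rw [n.base] at h1
    rw [map_zero, h1]
    rfl
  inv_ne z := n.inv_ne _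
  inv_right z := by rw [n.inv_right, M.apply_symm_apply]
  inv_left η hη := by rw [M.symm_apply_apply, n.inv_left η hη]
  smooth y hy := M.contDiff.comp_contDiffOn (n.smooth y hy)
  k := |(M : E2 →L[ℝ] E2).det| / H854.dc n A
  k_pos := by
    refine div_pos (abs_pos.2 ?_) (H854.dc_pos n A)
    exact (det_ne_zero_iff _).2 ⟨M, rfl⟩
  jac y hy u hu := by
    have h1 := H854.area_eq n A (y := y) hy hu
    have h2 : DifferentiableAt ℝ (fun u => n.x (L.e y u)) u :=
      ((n.smooth y hy).contDiffAt (isOpen_ball.mem_nhds hu)).differentiableAt (by simp)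
    have h3 : fderiv ℝ (fun u => M (n.x (L.e y u))) u
        = (M : E2 →L[ℝ] E2) ∘L fderiv ℝ (fun u => n.x (L.e y u)) u :=
      ((M : E2 →L[ℝ] E2).hasFDerivAt.comp u h2.hasFDerivAt).fderiv
    have h4 : (fderiv ℝ (H854.jj n y) u) = fderiv ℝ (fun u => n.x (L.e y u)) u := rfl
    rw [h4] at h1
    have h5 := H854.dc_pos n A
    rw [h3, det_comp2, abs_mul, mul_assoc, h1]
    field_simp

end Vale.Agent.P207.N3.H229
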