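import Vale.Agent.P207.N3.H229.Base

/-!
# P207, line N3, package PF3: the function `D` is continuous off the diagonal, and the measure `ν`
in the charts
-/

open Set Filter Topology Metric MeasureTheory
open scoped ContDiff

set_option linter.unusedSectionVars false

noncomputable section

namespace Vale.Agent.P207.N3.H229

open Vale.Agent.P207.N3.Ten

variable {Γ X B : Type} [Group Γ] [MetricSpace X] [ProperSpace X] [MulAction Γ X]
  [IsIsometricSMul Γ X] [TopologicalSpace B] [CompactSpace B] [T2Space B] [MulAction Γ B]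
  [ContinuousConstSMul Γ B] (L : Leaf Γ X B)

/-- pairs of different end points -/
abbrev Off (B : Type) : Type := {p : B × B // p.1 ≠ p.2}

theorem isOpen_off : IsOpen {p : B × B | p.1 ≠ p.2} := isOpen_ne_fun continuous_fst continuous_snd

instance : LocallyCompactSpace (Off B) :=
  (isOpen_off (B := B)).locallyCompactSpace

/-- the frames of level `0` -/
abbrev X0 : Type := {x : X // L.lv x = 0}

/-- the end points of a frame -/
def ends : X0 L → Off B := fun x => ⟨(L.em x.1, L.ep x.1), L.em_ne_ep x.1⟩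

theorem ends_cont : Continuous (ends L) :=
  Continuous.subtype_mk ((L.em_cont.comp continuous_subtype_val).prodMk
    ((ep_cont L).comp continuous_subtype_val)) _

theorem ends_surj : Function.Surjective (ends L) := by
  rintro ⟨⟨ξ, η⟩, h⟩
  obtain ⟨x, h1, h2, h3⟩ := L.exists_frame ξ η h 0
  refine ⟨⟨x, h3⟩, Subtype.ext ?_⟩
  simp [ends, h1, h2]

theorem ends_proper : IsProperMap (ends L) := by
  rw [isProperMap_iff_isCompact_preimage]
  refine ⟨ends_cont L, fun K hK => ?_⟩
  have h1 : IsCompact (Subtype.val '' K : Set (B × B)) := hK.image continuous_subtype_val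
  have h2 := L.hopf_proper _ h1 (by rintro p ⟨q, _, rfl⟩; exact q.2) 0
  have h3 : (Subtype.val '' (ends L ⁻¹' K) : Set X)
      = {x | (L.em x, L.ep x) ∈ (Subtype.val '' K : Set (B × B)) ∧ |L.lv x| ≤ 0} := by
    ext x
    constructor
    · rintro ⟨y, hy, rfl⟩
      refine ⟨⟨ends L y, hy, rfl⟩, ?_⟩
      rw [y.2]
      simp
    · rintro ⟨⟨q, hq, hqe⟩, hx⟩
      have hx0 : L.lv x = 0 := abs_eq_zero.1 (le_antisymm hx (abs_nonneg _))
      refine ⟨⟨x, hx0⟩, ?_, rfl⟩
      have : ends L ⟨x, hx0⟩ = q := Subtype.ext hqe.symm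
      change ends L ⟨x, hx0⟩ ∈ K
      rw [this]
      exact hq
  have h4 : IsClosedEmbedding (Subtype.val : X0 L → X) :=
    (isClosed_eq L.lv_cont continuous_const).isClosedEmbedding_subtypeVal
  have h5 := h4.isCompact_preimage (h3 ▸ h2)
  rwa [preimage_image_eq _ Subtype.val_injective] at h5

theorem ends_quot : IsQuotientMap (ends L) :=
  (ends_proper L).isClosedMap.isQuotientMap (ends_cont L) (ends_surj L)

variable {L} [MeasurableSpace B] [BorelSpace B] (A : Area L)

/-- `D` is continuous off the diagonal -/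
theorem D_cont : ContinuousOn (fun p : B × B => A.D p.1 p.2) {p | p.1 ≠ p.2} := by
  rw [continuousOn_iff_continuous_domRestrict]
  change Continuous fun q : Off B => A.D q.1.1 q.1.2
  rw [(ends_quot L).continuous_iff]
  have h1 : (fun q : Off B => A.D q.1.1 q.1.2) ∘ ends L
      = fun x : X0 L => L.lv x.1 + L.lv (L.flip x.1) := funext fun x => A.D_eq x.1
  rw [h1]
  exact (L.lv_cont.comp continuous_subtype_val).add
    ((L.lv_cont.comp L.flip_cont).comp continuous_subtype_val)

/-- `D` is symmetric off the diagonal -/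
theorem D_symm {ξ η : B} (h : ξ ≠ η) : A.D ξ η = A.D η ξ := by
  obtain ⟨x, rfl, rfl, -⟩ := L.exists_frame ξ η h 0
  have h1 := A.D_eq x
  have h2 := A.D_eq (L.flip x)
  rw [← L.ep_flip, L.ep_flip (L.flip x), L.flip_flip] at h2
  rw [h1, h2, Leaf.lp, Leaf.lp, L.flip_flip]
  ring

theorem D_cont_slice (ξ : B) : ContinuousOn (A.D ξ) {ξ}ᶜ := by
  have h1 : ContinuousOn (fun η : B => ((ξ, η) : B × B)) {ξ}ᶜ := by fun_prop
  exact (D_cont A).comp h1 fun η hη => fun h => hη h.symm

/-! ### the measure in the charts -/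

theorem e_cont_x (x : X) : ContinuousOn (L.e x) (closedBall (0 : E2) 3) :=
  L.e_cont.comp (f := fun u : E2 => ((x, u) : X × E2)) (by fun_prop) fun _ hu => ⟨mem_univ _, hu⟩

/-- the chart as an open embedding -/
theorem e_openEmb (x : X) : IsOpenEmbedding fun u : ball (0 : E2) 3 => L.e x u := by
  have hc : Continuous fun u : ball (0 : E2) 3 => L.e x u :=
    continuousOn_iff_continuous_domRestrict.1 ((e_cont_x x).mono ball_sub)
  have hi : Function.Injective fun u : ball (0 : E2) 3 => L.e x u := fun u v h =>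
    Subtype.ext (L.e_inj x (ball_sub u.2) (ball_sub v.2) h)
  have hr : range (fun u : ball (0 : E2) 3 => L.e x u) = L.e x '' ball 0 3 := by
    ext η
    constructor
    · rintro ⟨u, rfl⟩
      exact ⟨u, u.2, rfl⟩
    · rintro ⟨u, hu, rfl⟩
      exact ⟨⟨u, hu⟩, rfl⟩
  have hinv : ContinuousOn (ei L x) (L.e x '' ball (0 : E2) 3) := by
    refine (inv_cont L).comp (f := fun η : B => ((x, η) : X × B)) (by fun_prop) ?_
    rintro η ⟨u, hu, rfl⟩
    exact ⟨u, ball_sub hu, rfl⟩
  refine IsOpenEmbedding.mk (IsEmbedding.mk ?_ hi) ?_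
  · rw [isInducing_iff_nhds]
    intro u
    refine le_antisymm ?_ ?_
    · exact (hc.tendsto u).le_comap
    · intro s hs
      rw [mem_nhds_subtype] at hs
      obtain ⟨t, ht, hts⟩ := hs
      rw [mem_comap]
      have h1 : L.e x u ∈ L.e x '' ball (0 : E2) 3 := ⟨u, u.2, rfl⟩
      have h2 : ContinuousWithinAt (ei L x) (L.e x '' ball (0 : E2) 3) (L.e x u) := hinv _ h1
      rw [ContinuousWithinAt, ei_eq (ball_sub u.2)] at h2
      have h3 := h2 ht
      rw [mem_map, mem_nhdsWithin] at h3
      obtain ⟨o, ho, huo, hos⟩ := h3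
      refine ⟨o, ho.mem_nhds huo, fun v hv => hts ?_⟩
      have h4 := hos ⟨hv, ⟨v, v.2, rfl⟩⟩
      rw [mem_preimage, ei_eq (ball_sub v.2)] at h4
      exact h4
  · rw [hr]
    exact L.e_open.preimage (by fun_prop : Continuous fun η : B => ((x, η) : X × B))

theorem isOpen_e_image (x : X) {O : Set E2} (hO : IsOpen O) (h : O ⊆ ball 0 3) :
    IsOpen (L.e x '' O) := by
  have h1 := (e_openEmb (L := L) x).isOpenMap (Subtype.val ⁻¹' O)
    (hO.preimage continuous_subtype_val)
  convert h1 using 1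
  ext η
  constructor
  · rintro ⟨u, hu, rfl⟩
    exact ⟨⟨u, h hu⟩, hu, rfl⟩
  · rintro ⟨u, hu, rfl⟩
    exact ⟨u, hu, rfl⟩

theorem measurable_e_image (x : X) {S : Set E2} (hS : MeasurableSet S) (h : S ⊆ ball 0 3) :
    MeasurableSet (L.e x '' S) := by
  have h1 := (e_openEmb (L := L) x).measurableEmbedding.measurableSet_image'
    (measurable_subtype_coe hS)
  convert h1 using 1
  ext η
  constructor
  · rintro ⟨u, hu, rfl⟩
    exact ⟨⟨u, h hu⟩, hu, rfl⟩
  · rintro ⟨u, hu, rfl⟩
    exact ⟨u, hu, rfl⟩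

theorem measurable_e_preimage (x : X) {S : Set E2} {T : Set B} (hS : MeasurableSet S)
    (h : S ⊆ ball 0 3) (hT : MeasurableSet T) : MeasurableSet (S ∩ L.e x ⁻¹' T) := by
  have h1 : Measurable fun u : ball (0 : E2) 3 => L.e x u := (e_openEmb x).continuous.measurable
  have h2 := (MeasurableEmbedding.subtype_coe (measurableSet_ball (x := (0 : E2)) (ε := 3))).measurableSet_image'
    (h1 hT)
  convert hS.inter h2 using 1
  ext u
  constructor
  · rintro ⟨hu, hu2⟩
    exact ⟨hu, ⟨⟨u, h hu⟩, hu2, rfl⟩⟩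
  · rintro ⟨hu, ⟨v, hv, rfl⟩⟩
    exact ⟨hu, hv⟩

theorem s_cont_x (x : X) : ContinuousOn (A.s x) (ball 0 3) := (A.s_smooth x).continuousOn

/-- the measure in the chart -/
def mch (x : X) (S : Set E2) : Measure E2 :=
  (volume.restrict S).withDensity fun u => ENNReal.ofReal (Real.exp (-A.h * L.lv x) * A.s x u)

/-- the measure on the leaf -/
def mlf (x : X) (S : Set E2) : Measure B :=
  (A.ν.restrict (L.e x '' S)).withDensity fun η =>
    ENNReal.ofReal (Real.exp (-A.h * A.D (L.em x) η))

theorem e_aemeas (x : X) {S : Set E2} (hS : MeasurableSet S) (h : S ⊆ ball 0 3) :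
    AEMeasurable (L.e x) (volume.restrict S) :=
  ((e_cont_x x).mono (h.trans ball_sub)).aemeasurable hS

theorem mlf_eq (x : X) {S : Set E2} (hS : MeasurableSet S) (h : S ⊆ ball 0 3) :
    (mch A x S).map (L.e x) = mlf A x S := by
  have he : AEMeasurable (L.e x) (mch A x S) :=
    (e_aemeas x hS h).mono_ac (withDensity_absolutelyContinuous _ _)
  ext T hT
  rw [Measure.map_apply_of_aemeasurable he hT]
  have hm : MeasurableSet (S ∩ L.e x ⁻¹' T) := measurable_e_preimage x hS h hT
  have h1 : mch A x S (L.e x ⁻¹' T) = mch A x S (S ∩ L.e x ⁻¹' T) := by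
    have h2 : mch A x S Sᶜ = 0 := by
      rw [mch, withDensity_apply _ hS.compl, Measure.restrict_restrict hS.compl]
      simp
    refine le_antisymm ?_ (measure_mono inter_subset_right)
    calc mch A x S (L.e x ⁻¹' T) ≤ mch A x S ((S ∩ L.e x ⁻¹' T) ∪ Sᶜ) := by
          refine measure_mono fun u hu => ?_
          by_cases hs : u ∈ S
          · exact Or.inl ⟨hs, hu⟩
          · exact Or.inr hs
      _ ≤ mch A x S (S ∩ L.e x ⁻¹' T) + mch A x S Sᶜ := measure_union_le _ _
      _ = _ := by rw [h2, add_zero]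
  rw [h1, mch, withDensity_apply _ hm, Measure.restrict_restrict hm,
    inter_eq_left.2 (inter_subset_left : S ∩ L.e x ⁻¹' T ⊆ S),
    A.ν_chart x _ hm (inter_subset_left.trans h), mlf, withDensity_apply _ hT,
    Measure.restrict_restrict hT]
  congr 2
  ext η
  constructor
  · rintro ⟨u, ⟨hu, huT⟩, rfl⟩
    exact ⟨huT, ⟨u, hu, rfl⟩⟩
  · rintro ⟨hη, ⟨u, hu, rfl⟩⟩
    exact ⟨u, ⟨hu, hη⟩, rfl⟩

/-- the measure `ν` in the chart `e x` -/
theorem integral_chart (x : X) {S : Set E2} (hS : MeasurableSet S) (h : S ⊆ ball 0 3) {G : B → ℝ}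
    (hG : AEStronglyMeasurable G (A.ν.restrict (L.e x '' S))) :
    ∫ u in S, G (L.e x u) * Real.exp (A.h * A.D (L.em x) (L.e x u)) *
        (Real.exp (-A.h * L.lv x) * A.s x u)
      = ∫ η in L.e x '' S, G η ∂A.ν := by
  have hne : ∀ η ∈ L.e x '' S, η ∈ ({L.em x}ᶜ : Set B) := by
    rintro η ⟨u, hu, rfl⟩ h'
    exact L.e_ne x u (ball_sub (h hu)) h'
  have hDc : ContinuousOn (A.D (L.em x)) (L.e x '' S) := (D_cont_slice A _).mono hne
  have hm := measurable_e_image (L := L) x hS h
  set F : B → ℝ := fun η => G η * Real.exp (A.h * A.D (L.em x) η) with hF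
  have hFm : AEStronglyMeasurable F (A.ν.restrict (L.e x '' S)) := by
    refine hG.mul ?_
    exact (Real.continuous_exp.comp_continuousOn (continuousOn_const.mul hDc)).aestronglyMeasurable
      hm
  have he : AEMeasurable (L.e x) (mch A x S) :=
    (e_aemeas x hS h).mono_ac (withDensity_absolutelyContinuous _ _)
  have h1 : ∫ u in S, G (L.e x u) * Real.exp (A.h * A.D (L.em x) (L.e x u)) *
      (Real.exp (-A.h * L.lv x) * A.s x u) = ∫ u, F (L.e x u) ∂(mch A x S) := by
    rw [mch, integral_withDensity_eq_integral_toReal_smul₀]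
    · refine setIntegral_congr_fun hS fun u hu => ?_
      simp only [smul_eq_mul, hF]
      rw [ENNReal.toReal_ofReal (mul_nonneg (Real.exp_pos _).le (A.s_pos x u (h hu)).le)]
      ring
    · refine AEMeasurable.ennreal_ofReal ?_
      exact ((continuousOn_const.mul (s_cont_x A x)).mono h).aemeasurable hS
    · exact Eventually.of_forall fun _ => ENNReal.ofReal_lt_top
  have hFm2 : AEStronglyMeasurable F ((mch A x S).map (L.e x)) := by
    rw [mlf_eq A x hS h]
    exact hFm.mono_ac (withDensity_absolutelyContinuous _ _)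
  rw [h1, ← integral_map he hFm2, mlf_eq A x hS h, mlf,
    integral_withDensity_eq_integral_toReal_smul₀]
  · refine setIntegral_congr_fun hm fun η _ => ?_
    simp only [smul_eq_mul, hF]
    rw [ENNReal.toReal_ofReal (Real.exp_pos _).le, mul_comm, mul_assoc, ← Real.exp_add]
    have : A.h * A.D (L.em x) η + -A.h * A.D (L.em x) η = 0 := by ring
    rw [this, Real.exp_zero, mul_one]
  · refine AEMeasurable.ennreal_ofReal ?_
    exact (Real.continuous_exp.comp_continuousOn (continuousOn_const.mul hDc)).aemeasurable hm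
  · exact Eventually.of_forall fun _ => ENNReal.ofReal_lt_top

end Vale.Agent.P207.N3.H229
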