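import Vale.Agent.P207.N3.H229.Dcont
import Vale.Agent.P207.N3.H250.InvFn
import Vale.Agent.P207.N3.H250.Det2

/-!
# P207, line N3, package PF3: the densities of the leaves on the transversal disc

`Dens A x0`: one family of leaves (labels `y`, leaf `ξ = lab y`) near the geodesic of the frame
`x0`, seen on a transversal disc with coordinate `t`; `en y t` is the end in the future of the
geodesic from `lab y` through the point `t`, and `ψ y t` is this end in the chart `e x_y`,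
`x_y = hol (lab y) x0`. `u y t` is the Busemann function of `lab y`, and `w y t` the Busemann
function of `en y t`, at the point `t`.
-/

open Set Filter Topology Metric MeasureTheory
open scoped ContDiff

set_option linter.unusedSectionVars false

noncomputable section

namespace Vale.Agent.P207.N3.H229

open Vale.Agent.P207.N3.Ten

variable {Γ X B : Type} [Group Γ] [MetricSpace X] [ProperSpace X] [MulAction Γ X]
  [IsIsometricSMul Γ X] [TopologicalSpace B] [CompactSpace B] [T2Space B] [MulAction Γ B]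
  [ContinuousConstSMul Γ B] {L : Leaf Γ X B} [MeasurableSpace B] [BorelSpace B]

/-- A coordinate of the leaf of `em x0`, in which the Margulis area is constant. -/
structure Co (A : Area L) (x0 : X) where
  x : B → E2
  inv : E2 → B
  inv_cont : Continuous inv
  inv_zero : inv 0 = L.ep x0
  inv_ne : ∀ z, inv z ≠ L.em x0
  inv_right : ∀ z, x (inv z) = z
  inv_left : ∀ η, η ≠ L.em x0 → inv (x η) = η
  smooth : L.SmoothOn (L.em x0) x
  k : ℝ
  k_pos : 0 < k
  jac : ∀ y, L.em y = L.em x0 → ∀ u ∈ ball (0 : E2) 3,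
    |(fderiv ℝ (fun u => x (L.e y u)) u).det| = k * Real.exp (-A.h * L.lv y) * A.s y u

/-- One family of leaves on a transversal disc. -/
structure Dens (A : Area L) (x0 : X) where
  co : Co A x0
  lab : E2 → B
  lab_cont : Continuous lab
  lab_zero : lab 0 = L.em x0
  lab_ne : ∀ y, lab y ≠ L.ep x0
  W : Set (E2 × E2)
  W_mem : ((0 : E2), (0 : E2)) ∈ W
  u : E2 → E2 → ℝ
  u_jc : JC u W
  w : E2 → E2 → ℝ
  en : E2 → E2 → B
  D_eq : ∀ z ∈ W, A.D (lab z.1) (en z.1 z.2) = u z.1 z.2 + w z.1 z.2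
  ψ : E2 → E2 → E2
  ψ_jc : JC ψ W
  ψ_zero : ψ 0 0 = 0
  ψ_mem : ∀ z ∈ W, ψ z.1 z.2 ∈ ball (0 : E2) 3
  ψ_e : ∀ z ∈ W, L.e (L.hol (lab z.1) x0) (ψ z.1 z.2) = en z.1 z.2
  ψ_inv : ∀ z ∈ W, (fderiv ℝ (ψ z.1) z.2).IsInvertible

namespace Dens

variable {A : Area L} {x0 : X} (S : Dens A x0)

/-- the frame of the leaf `y` -/
def fr (y : E2) : X := L.hol (S.lab y) x0

theorem em_fr (y : E2) : L.em (S.fr y) = S.lab y := L.hol_em _ _ (S.lab_ne y)

theorem fr_zero : S.fr 0 = x0 := by rw [fr, S.lab_zero, L.hol_self]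

theorem fr_cont : Continuous S.fr := by
  have h1 : Continuous fun y : E2 => ((S.lab y, x0) : B × X) := by
    have := S.lab_cont
    fun_prop
  exact continuousOn_univ.1 (L.hol_cont.comp h1.continuousOn fun y _ => S.lab_ne y)

/-- the logarithm of the density of the leaf area at the level of the disc -/
def ρ (y t : E2) : ℝ :=
  Real.log |(fderiv ℝ (S.ψ y) t).det| + Real.log (A.s (S.fr y) (S.ψ y t))
    + A.h * (S.u y t - L.lv (S.fr y))

theorem det_ne {z : E2 × E2} (hz : z ∈ S.W) : (fderiv ℝ (S.ψ z.1) z.2).det ≠ 0 :=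
  (det_ne_zero_iff _).2 (S.ψ_inv z hz)

theorem s_jc : JC (fun (x : X) u => A.s x u) (univ ×ˢ ball 0 3) := by
  refine ⟨isOpen_univ.prod isOpen_ball, fun x => (A.s_smooth x).mono fun u hu => hu.2,
    fun k => A.s_cont k⟩

theorem ρ_jc : JC S.ρ S.W := by
  have h1 : JC (fun y t => (fderiv ℝ (S.ψ y) t).det) S.W :=
    S.ψ_jc.fderiv.comp_contDiff contDiff_det2
  have h2 : JC (fun y t => Real.log |(fderiv ℝ (S.ψ y) t).det|) S.W := by
    simp only [Real.log_abs]
    exact h1.log fun p hp => S.det_ne hp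
  have h3 : JC (fun y u => A.s (S.fr y) u) {p : E2 × E2 | (S.fr p.1, p.2) ∈ univ ×ˢ ball 0 3} :=
    (s_jc (A := A)).pullback S.fr_cont
  have h4 : JC (fun y t => A.s (S.fr y) (S.ψ y t)) S.W :=
    h3.comp' S.ψ_jc fun p hp => ⟨mem_univ _, S.ψ_mem p hp⟩
  have h5 : JC (fun y t => Real.log (A.s (S.fr y) (S.ψ y t))) S.W :=
    h4.log fun p hp => (A.s_pos _ _ (S.ψ_mem p hp)).ne'
  have h6 : JC (fun y t => A.h * (S.u y t - L.lv (S.fr y))) S.W := by
    have h7 : JC (fun (y : E2) (_ : E2) => L.lv (S.fr y)) S.W :=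
      JC.param' S.ψ_jc.isOpen (L.lv_cont.comp S.fr_cont)
    exact (S.u_jc.sub h7).const_smul A.h
  exact (h2.add h5).add h6

theorem ψ_cont : ContinuousOn (fun z : E2 × E2 => S.ψ z.1 z.2) S.W := S.ψ_jc.continuousOn

theorem W_nhds {z : E2 × E2} (hz : z ∈ S.W) : S.W ∈ 𝓝 z := S.ψ_jc.isOpen.mem_nhds hz

theorem W_ev {y t : E2} (hz : (y, t) ∈ S.W) : ∀ᶠ t' in 𝓝 t, (y, t') ∈ S.W :=
  (by fun_prop : Continuous fun t' : E2 => ((y, t') : E2 × E2)).continuousAt.eventually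
    (S.W_nhds hz)

/-- the density of a frame, `u` in the chart -/
theorem s_eq {x z : X} (hxz : L.em x = L.em z) {u : E2} (hu : u ∈ L.dm x z) :
    (fderiv ℝ (L.τ x z) u).det ≠ 0 ∧
    Real.log (A.s x u) - A.h * L.lv x = Real.log |(fderiv ℝ (L.τ x z) u).det|
      + Real.log (A.s z (L.τ x z u)) - A.h * L.lv z := by
  have h1 := A.s_trans x z hxz u hu
  have h2 := A.s_pos x u hu.1
  have h3 := A.s_pos z _ (tau_mem hu)
  have h4 : |(fderiv ℝ (L.τ x z) u).det| ≠ 0 := by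
    intro h0
    rw [h0] at h1
    simp only [mul_zero, zero_mul] at h1
    exact h2.ne' h1
  refine ⟨abs_ne_zero.1 h4, ?_⟩
  rw [h1, Real.log_mul (mul_ne_zero (Real.exp_pos _).ne' h4) h3.ne',
    Real.log_mul (Real.exp_pos _).ne' h4, Real.log_exp]
  ring

theorem ρ_map (g : Γ) {y y' t : E2} {F : E2 → E2} (hy : g • S.lab y = S.lab y')
    (hF : DifferentiableAt ℝ F t) (hz : (y, t) ∈ S.W) (hz' : (y', F t) ∈ S.W)
    (hen : ∀ᶠ t' in 𝓝 t, S.en y' (F t') = g • S.en y t') :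
    S.ρ y' (F t) + Real.log |(fderiv ℝ F t).det| = S.ρ y t
      + A.h * (S.u y' (F t) - S.u y t) - A.h * (L.lv (g • S.fr y) - L.lv (S.fr y)) := by
  have hem : L.em (g • S.fr y) = L.em (S.fr y') := by rw [L.em_smul, S.em_fr, S.em_fr, hy]
  -- the transition map
  have key : ∀ t', (y, t') ∈ S.W → (y', F t') ∈ S.W → S.en y' (F t') = g • S.en y t' →
      S.ψ y t' ∈ L.dm (g • S.fr y) (S.fr y') ∧
        L.τ (g • S.fr y) (S.fr y') (S.ψ y t') = S.ψ y' (F t') := by
    intro t' h1 h2 h3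
    have m1 : S.ψ y t' ∈ ball (0 : E2) 3 := S.ψ_mem (y, t') h1
    have m2 : S.ψ y' (F t') ∈ ball (0 : E2) 3 := S.ψ_mem (y', F t') h2
    have p1 : L.e (S.fr y) (S.ψ y t') = S.en y t' := S.ψ_e (y, t') h1
    have p2 : L.e (S.fr y') (S.ψ y' (F t')) = S.en y' (F t') := S.ψ_e (y', F t') h2
    have e1 : L.e (S.fr y') (S.ψ y' (F t')) = L.e (g • S.fr y) (S.ψ y t') := by
      rw [L.e_smul g _ _ (ball_sub m1), p1, p2, h3]
    exact ⟨mem_dm m1 m2 e1, tau_eq (ball_sub m2) e1⟩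
  have hW1 := S.W_ev hz
  have hW2 : ∀ᶠ t' in 𝓝 t, (y', F t') ∈ S.W :=
    hF.continuousAt.tendsto.eventually (S.W_ev (y := y') (t := F t) hz')
  have hev : (fun t' => L.τ (g • S.fr y) (S.fr y') (S.ψ y t')) =ᶠ[𝓝 t] fun t' => S.ψ y' (F t') := by
    filter_upwards [hW1, hW2, hen] with t' h1 h2 h3 using (key t' h1 h2 h3).2
  obtain ⟨hdm, htau⟩ := key t hz hz' hen.self_of_nhds
  have d1 : DifferentiableAt ℝ (S.ψ y) t := S.ψ_jc.differentiableAt (p := (y, t)) hz
  have d2 : DifferentiableAt ℝ (S.ψ y') (F t) := S.ψ_jc.differentiableAt (p := (y', F t)) hz'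
  have hchain : fderiv ℝ (L.τ (g • S.fr y) (S.fr y')) (S.ψ y t) ∘L fderiv ℝ (S.ψ y) t
      = fderiv ℝ (S.ψ y') (F t) ∘L fderiv ℝ F t := by
    have e1 := ((tau_diff hem hdm).hasFDerivAt.comp t d1.hasFDerivAt).congr_of_eventuallyEq
      hev.symm
    exact e1.unique (d2.hasFDerivAt.comp t hF.hasFDerivAt)
  have hdet : (fderiv ℝ (L.τ (g • S.fr y) (S.fr y')) (S.ψ y t)).det * (fderiv ℝ (S.ψ y) t).det
      = (fderiv ℝ (S.ψ y') (F t)).det * (fderiv ℝ F t).det := by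
    rw [← det_comp2, ← det_comp2, hchain]
  have n1 := (s_eq (A := A) hem hdm).1
  have n2 : (fderiv ℝ (S.ψ y) t).det ≠ 0 := S.det_ne (z := (y, t)) hz
  have n3 : (fderiv ℝ (S.ψ y') (F t)).det ≠ 0 := S.det_ne (z := (y', F t)) hz'
  have n4 : (fderiv ℝ F t).det ≠ 0 := by
    intro h0
    rw [h0, mul_zero] at hdet
    exact mul_ne_zero n1 n2 hdet
  have hlog : Real.log |(fderiv ℝ (L.τ (g • S.fr y) (S.fr y')) (S.ψ y t)).det|
      + Real.log |(fderiv ℝ (S.ψ y) t).det|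
      = Real.log |(fderiv ℝ (S.ψ y') (F t)).det| + Real.log |(fderiv ℝ F t).det| := by
    simp only [Real.log_abs]
    rw [← Real.log_mul n1 n2, ← Real.log_mul n3 n4, hdet]
  have hs := (s_eq (A := A) hem hdm).2
  rw [A.s_smul g _ _ (S.ψ_mem _ hz), htau] at hs
  unfold ρ
  linarith

/-- the density read in an arbitrary frame of the leaf -/
theorem ρ_frame {y t : E2} {z : X} (hz : (y, t) ∈ S.W) (hem : L.em z = S.lab y)
    (hm : S.ψ y t ∈ L.dm (S.fr y) z) :
    S.ρ y t = Real.log |(fderiv ℝ (fun t' => L.τ (S.fr y) z (S.ψ y t')) t).det|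
      + Real.log (A.s z (L.τ (S.fr y) z (S.ψ y t))) + A.h * (S.u y t - L.lv z) := by
  have hem' : L.em (S.fr y) = L.em z := by rw [S.em_fr, hem]
  have d1 : DifferentiableAt ℝ (S.ψ y) t := S.ψ_jc.differentiableAt hz
  rw [fderiv_fun_comp t (tau_diff hem' hm) d1, det_comp2]
  have h1 := s_eq (A := A) hem' hm
  have n2 := S.det_ne hz
  rw [Real.log_abs, Real.log_mul h1.1 n2]
  have h2 := h1.2
  rw [Real.log_abs] at h2
  unfold ρ
  rw [Real.log_abs]
  linarith

/-- the density of the leaf `0` in the normal coordinate -/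
theorem dens : ∃ c, ∀ᶠ t in 𝓝 (0 : E2),
    Real.log |(fderiv ℝ (fun t => S.co.x (S.en 0 t)) t).det| = S.ρ 0 t - A.h * S.u 0 t + c := by
  refine ⟨Real.log S.co.k, ?_⟩
  have hW := S.W_ev S.W_mem
  filter_upwards [hW, hW.eventually_nhds] with t ht ht2
  have h1 : (fun t => S.co.x (S.en 0 t)) =ᶠ[𝓝 t] fun t => S.co.x (L.e x0 (S.ψ 0 t)) := by
    filter_upwards [ht2] with t' ht'
    rw [← S.ψ_e _ ht']
    simp only [S.lab_zero, L.hol_self]
  have d1 : DifferentiableAt ℝ (S.ψ 0) t := S.ψ_jc.differentiableAt ht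
  have d2 : DifferentiableAt ℝ (fun u => S.co.x (L.e x0 u)) (S.ψ 0 t) :=
    ((S.co.smooth x0 rfl).contDiffAt (isOpen_ball.mem_nhds (S.ψ_mem _ ht))).differentiableAt
      (by simp)
  rw [h1.fderiv_eq, fderiv_fun_comp t d2 d1, det_comp2, abs_mul, S.co.jac x0 rfl _ (S.ψ_mem _ ht)]
  have n1 := S.co.k_pos
  have n2 := A.s_pos x0 _ (S.ψ_mem _ ht)
  have n3 := S.det_ne ht
  rw [Real.log_mul (mul_ne_zero (mul_ne_zero n1.ne' (Real.exp_pos _).ne') n2.ne')
    (abs_ne_zero.2 n3), Real.log_mul (mul_ne_zero n1.ne' (Real.exp_pos _).ne') n2.ne',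
    Real.log_mul n1.ne' (Real.exp_pos _).ne', Real.log_exp]
  unfold ρ
  rw [S.fr_zero]
  ring

end Dens

end Vale.Agent.P207.N3.H229
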