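import Vale.Agent.P207.N3.H229.CoNor
import Vale.Agent.P207.N3.H722.Poin

/-!
# P207, line N3, package PF3: the densities over the geometric input `GeoIn`
-/

open Set Filter Topology Metric MeasureTheory
open scoped ContDiff

set_option linter.unusedSectionVars false

noncomputable section

namespace Vale.Agent.P207.N3.H229

open Vale.Agent.P207.N3.Ten
open Vale.Agent.P207.N3.H722 (GeoIn HessIn invThm)
open Vale.Agent.P207.N3.H76 (pk tl e0 sg)

variable {Γ X B : Type} [Group Γ] [MetricSpace X] [ProperSpace X] [MulAction Γ X]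
  [IsIsometricSMul Γ X] [TopologicalSpace B] [CompactSpace B] [T2Space B] [MulAction Γ B]
  [ContinuousConstSMul Γ B] {L : Leaf Γ X B}
  {V : Type} [NormedAddCommGroup V] [NormedSpace ℝ V] [FiniteDimensional ℝ V] (I : GeoIn L V)

theorem hol_fr_cont {x₀ : X} {lab : E2 → B} (hc : Continuous lab)
    (hne : ∀ y, lab y ≠ L.ep x₀) : Continuous fun y => L.hol (lab y) x₀ := by
  have h1 : Continuous fun y : E2 => ((lab y, x₀) : B × X) := by fun_prop
  exact continuousOn_univ.1 (L.hol_cont.comp h1.continuousOn fun y _ => hne y)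

/-- the family of leaves, in the charts -/
theorem exists_psi {x₀ : X} {lab : E2 → B} (hc : Continuous lab) (h0 : lab 0 = L.em x₀)
    (hne : ∀ y, lab y ≠ L.ep x₀) : ∃ (W : Set (E2 × E2)) (ψ : E2 → E2 → E2), JC ψ W ∧
      ((0 : E2), (0 : E2)) ∈ W ∧ ψ 0 0 = 0 ∧
      (∀ z ∈ W, z.2 ∈ ball (0 : E2) I.S.R ∧ ψ z.1 z.2 ∈ ball (0 : E2) 3 ∧
        L.e (L.hol (lab z.1) x₀) (ψ z.1 z.2) = I.S.line (lab z.1) (I.D x₀ z.2)) ∧
      ∀ z ∈ W, (fderiv ℝ (ψ z.1) z.2).IsInvertible := by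
  have hfr := hol_fr_cont hc hne
  have hfr0 : L.hol (lab 0) x₀ = x₀ := by rw [h0, L.hol_self]
  obtain ⟨T, G, hG, h1, h2, h3⟩ := I.S.cross invThm (x₀ := x₀) (y₀ := x₀) (u₀ := 0)
    I.S.zero_mem (s₀ := 0) (v₀ := 0) I.S.zero_mem rfl
  have hcc : Continuous fun y : E2 => ((x₀, L.hol (lab y) x₀) : X × X) :=
    continuous_const.prodMk hfr
  have hG' := (hG.pullback hcc).snd
  set W0 : Set (E2 × E2) := {p | ((x₀, L.hol (lab p.1) x₀), p.2) ∈ T} with hW0
  set ψ : E2 → E2 → E2 := fun y t => (G (x₀, L.hol (lab y) x₀) t).2 with hψ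
  have hJ : JC ψ W0 := hG'
  set W1 : Set (E2 × E2) := W0 ∩ (fun z : E2 × E2 => ψ z.1 z.2) ⁻¹' ball (0 : E2) 3 with hW1
  have hW1o : IsOpen W1 := hJ.continuousOn.isOpen_inter_preimage hJ.isOpen isOpen_ball
  have hdc : ContinuousOn (fun z : E2 × E2 => (fderiv ℝ (ψ z.1) z.2).det) W1 :=
    (contDiff_det2.continuous.comp_continuousOn hJ.fderiv.continuousOn).mono inter_subset_left
  set W : Set (E2 × E2) := W1 ∩ (fun z : E2 × E2 => (fderiv ℝ (ψ z.1) z.2).det) ⁻¹' {0}ᶜ with hW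
  have hWo : IsOpen W := hdc.isOpen_inter_preimage hW1o isOpen_compl_singleton
  have m0 : ((0 : E2), (0 : E2)) ∈ W0 := by
    change ((x₀, L.hol (lab 0) x₀), (0 : E2)) ∈ T
    rw [hfr0]
    exact h1
  have ψ0 : ψ 0 0 = 0 := by
    change (G (x₀, L.hol (lab 0) x₀) 0).2 = 0
    rw [hfr0, h2]
  have m1 : ((0 : E2), (0 : E2)) ∈ W1 := ⟨m0, by
    change ψ 0 0 ∈ ball (0 : E2) 3
    rw [ψ0]
    exact mem_ball0⟩
  -- the base leaf
  have hbase : ∀ᶠ t in 𝓝 (0 : E2), ψ 0 t = t := by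
    have e1 : ∀ᶠ t in 𝓝 (0 : E2), ((0 : E2), t) ∈ W1 :=
      (by fun_prop : Continuous fun t : E2 => (((0 : E2), t) : E2 × E2)).continuousAt.eventually
        (hW1o.mem_nhds m1)
    filter_upwards [e1, isOpen_ball.mem_nhds mem_ball0] with t ht ht3
    obtain ⟨-, -, h4⟩ := h3 _ ht.1
    simp only at h4
    rw [hfr0] at h4
    have h5 : ψ 0 t = (G (x₀, x₀) t).2 := by
      change (G (x₀, L.hol (lab 0) x₀) t).2 = _
      rw [hfr0]
    have h6 : ψ 0 t ∈ ball (0 : E2) 3 := ht.2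
    rw [h5] at h6 ⊢
    exact I.S.A_inj x₀ _ _ (ball_sub h6) t (ball_sub ht3) h4
  have m : ((0 : E2), (0 : E2)) ∈ W := by
    refine ⟨m1, ?_⟩
    have h5 : fderiv ℝ (ψ 0) 0 = ContinuousLinearMap.id ℝ E2 := by
      have h6 : ψ 0 =ᶠ[𝓝 0] id := hbase
      rw [h6.fderiv_eq, fderiv_id]
    simp only [mem_preimage, mem_compl_iff, mem_singleton_iff]
    rw [h5]
    have h7 : (ContinuousLinearMap.id ℝ E2).det = 1 := LinearMap.det_id
    rw [h7]
    exact one_ne_zero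
  refine ⟨W, ψ, hJ.mono hWo fun z hz => hz.1.1, m, ψ0, fun z hz => ?_, fun z hz => ?_⟩
  · obtain ⟨h4, h5, h6⟩ := h3 _ hz.1.1
    refine ⟨h4, hz.1.2, ?_⟩
    set y := L.hol (lab z.1) x₀ with hy
    have hemy : L.em y = lab z.1 := L.hol_em _ _ (hne z.1)
    have hv : ψ z.1 z.2 ∈ ball (0 : E2) I.S.R := h5
    have e1 : I.S.A y ((G (x₀, y) z.2).1, ψ z.1 z.2) = I.D x₀ z.2 := h6
    rw [I.S.A_psi y _ _ hv, I.em_eq, hemy] at e1
    rw [← I.e_eq y _ (ball_sub hz.1.2), H459.Slice.e, I.em_eq, hemy, I.S.line_iff]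
    exact ⟨_, e1.symm⟩
  · exact (det_ne_zero_iff _).1 hz.2

variable [MeasurableSpace B] [BorelSpace B] (A : Area L)

/-- the point `D` lies on the geodesic -/
theorem D_line (ξ : B) (q : V) :
    A.D ξ (I.S.line ξ q) = I.b ξ q + I.b (I.S.line ξ q) q := by
  obtain ⟨z, h1, h2, h3⟩ := I.exists_frame ξ q
  have e1 := I.b_lv z
  have e2 := I.b_lv (L.flip z)
  rw [GeoIn.em_flip, I.ft_flip, h3, h2] at e2
  rw [h1, h2] at e1
  rw [← h3, ← h1, A.D_eq, h1, h3, e1, e2]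
  rfl

/-- **the densities of a family of leaves on the disc of `x₀`** -/
def mkDens {x₀ : X} (co : Co A x₀) {lab : E2 → B} (hc : Continuous lab)
    (h0 : lab 0 = L.em x₀) (hne : ∀ y, lab y ≠ L.ep x₀) : Dens A x₀ where
  co := co
  lab := lab
  lab_cont := hc
  lab_zero := h0
  lab_ne := hne
  W := (exists_psi I hc h0 hne).choose
  W_mem := (exists_psi I hc h0 hne).choose_spec.choose_spec.2.1
  u y t := I.b (lab y) (I.D x₀ t)
  u_jc := by
    have h1 := (exists_psi I hc h0 hne).choose_spec.choose_spec.1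
    have h2 := (exists_psi I hc h0 hne).choose_spec.choose_spec.2.2.2.1
    have h3 : JC (fun (y : E2) (q : V) => I.b (lab y) q) {p : E2 × V | (lab p.1, p.2) ∈ univ} :=
      I.b_jc.pullback hc
    have h4 : JC (fun (_ : E2) t => I.D x₀ t) (exists_psi I hc h0 hne).choose :=
      JC.of_contDiffOn isOpen_ball (I.D_smooth x₀) h1.isOpen fun p hp => (h2 p hp).1
    exact h3.comp' h4 fun _ _ => mem_univ _
  w y t := I.b (I.S.line (lab y) (I.D x₀ t)) (I.D x₀ t)
  en y t := I.S.line (lab y) (I.D x₀ t)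
  D_eq z _ := D_line I A _ _
  ψ := (exists_psi I hc h0 hne).choose_spec.choose
  ψ_jc := (exists_psi I hc h0 hne).choose_spec.choose_spec.1
  ψ_zero := (exists_psi I hc h0 hne).choose_spec.choose_spec.2.2.1
  ψ_mem z hz := ((exists_psi I hc h0 hne).choose_spec.choose_spec.2.2.2.1 z hz).2.1
  ψ_e z hz := ((exists_psi I hc h0 hne).choose_spec.choose_spec.2.2.2.1 z hz).2.2
  ψ_inv z hz := (exists_psi I hc h0 hne).choose_spec.choose_spec.2.2.2.2 z hz

end Vale.Agent.P207.N3.H229
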