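import Vale.Agent.P207.N3.H229.Dens

/-!
# P207, line N3, package PF3: the stable holonomy of the Margulis measures on the disc
-/

open Set Filter Topology Metric MeasureTheory
open scoped ContDiff

set_option linter.unusedSectionVars false

noncomputable section

namespace Vale.Agent.P207.N3.H229

open Vale.Agent.P207.N3.Ten

variable {Γ X B : Type} [Group Γ] [MetricSpace X] [ProperSpace X] [MulAction Γ X]
  [IsIsometricSMul Γ X] [TopologicalSpace B] [CompactSpace B] [T2Space B] [MulAction Γ B]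
  [ContinuousConstSMul Γ B] {L : Leaf Γ X B} [MeasurableSpace B] [BorelSpace B]

/-- the coordinate is continuous on the leaf -/
theorem Co.cont {A : Area L} {x0 : X} (C : Co A x0) : ContinuousOn C.x {L.em x0}ᶜ := by
  intro η hη
  have h0 : L.em x0 ≠ η := fun h => hη h.symm
  obtain ⟨z, h1, h2, -⟩ := L.exists_frame (L.em x0) η h0 0
  refine ContinuousAt.continuousWithinAt ?_
  have h3 : ContinuousOn (fun u => C.x (L.e z u)) (ball (0 : E2) 3) := (C.smooth z h1).continuousOn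
  have h4 : η ∈ L.e z '' ball (0 : E2) 3 := ⟨0, mem_ball0, by rw [L.e_zero, h2]⟩
  have h5 : L.e z '' ball (0 : E2) 3 ∈ 𝓝 η := (isOpen_e_image z isOpen_ball subset_rfl).mem_nhds h4
  have h6 : ContinuousOn (ei L z) (L.e z '' ball (0 : E2) 3) := by
    refine (H229.inv_cont L).comp (f := fun η : B => ((z, η) : X × B)) (by fun_prop) ?_
    rintro η ⟨u, hu, rfl⟩
    exact ⟨u, ball_sub hu, rfl⟩
  have h7 : ContinuousOn (fun ζ => C.x (L.e z (ei L z ζ))) (L.e z '' ball (0 : E2) 3) :=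
    h3.comp h6 fun ζ hζ => ei_mem_ball le_rfl hζ
  have h8 : ContinuousOn C.x (L.e z '' ball (0 : E2) 3) :=
    h7.congr fun ζ hζ => congrArg C.x (e_ei (image_mono ball_sub hζ)).symm
  exact h8.continuousAt h5

namespace Dens

variable {A : Area L} {x0 : X} (S : Dens A x0)

theorem en_cont : ContinuousOn (fun z : E2 × E2 => S.en z.1 z.2) S.W := by
  have h1 : ContinuousOn (fun z : E2 × E2 => ((S.fr z.1, S.ψ z.1 z.2) : X × E2)) S.W :=
    ((S.fr_cont.comp continuous_fst).continuousOn).prodMk S.ψ_cont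
  have h2 := L.e_cont.comp h1 fun z hz => ⟨mem_univ _, ball_sub (S.ψ_mem z hz)⟩
  exact h2.congr fun z hz => (S.ψ_e z hz).symm

theorem en_zero : S.en 0 0 = L.ep x0 := by
  have h := S.ψ_e _ S.W_mem
  simp only [S.ψ_zero, S.lab_zero, L.hol_self, L.e_zero] at h
  exact h.symm

/-- the linear part at `0` -/
def lin : E2 ≃L[ℝ] E2 := (S.ψ_inv _ S.W_mem).choose

theorem lin_eq : (S.lin : E2 →L[ℝ] E2) = fderiv ℝ (S.ψ 0) 0 :=
  (S.ψ_inv _ S.W_mem).choose_spec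

/-- the good neighbourhood -/
theorem exists_good : ∃ r > 0, ∀ᶠ y in 𝓝 (0 : E2), ∀ t ∈ ball (0 : E2) r,
    (y, t) ∈ S.W ∧ S.en y t ≠ L.em x0 ∧
    ‖fderiv ℝ (S.ψ y) t - (S.lin : E2 →L[ℝ] E2)‖
      ≤ 1 / (2 * (‖(S.lin.symm : E2 →L[ℝ] E2)‖ + 1)) := by
  have hc : 0 < 1 / (2 * (‖(S.lin.symm : E2 →L[ℝ] E2)‖ + 1)) := by positivity
  have h1 : ∀ᶠ z in 𝓝 ((0 : E2), (0 : E2)), z ∈ S.W := S.W_nhds S.W_mem
  have h2 : ContinuousAt (fun z : E2 × E2 => S.en z.1 z.2) (0, 0) :=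
    S.en_cont.continuousAt (S.W_nhds S.W_mem)
  have h3 : ∀ᶠ z in 𝓝 ((0 : E2), (0 : E2)), S.en z.1 z.2 ≠ L.em x0 := by
    refine h2.tendsto.eventually (isOpen_ne.mem_nhds ?_)
    change S.en 0 0 ≠ L.em x0
    rw [S.en_zero]
    exact fun h => L.em_ne_ep x0 h.symm
  have h4 : ContinuousAt (fun z : E2 × E2 => fderiv ℝ (S.ψ z.1) z.2) (0, 0) :=
    S.ψ_jc.fderiv.continuousOn.continuousAt (S.W_nhds S.W_mem)
  have h5 : ∀ᶠ z in 𝓝 ((0 : E2), (0 : E2)), ‖fderiv ℝ (S.ψ z.1) z.2 - (S.lin : E2 →L[ℝ] E2)‖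
      ≤ 1 / (2 * (‖(S.lin.symm : E2 →L[ℝ] E2)‖ + 1)) := by
    have h6 := h4.tendsto.eventually (closedBall_mem_nhds (fderiv ℝ (S.ψ 0) 0) hc)
    filter_upwards [h6] with z hz
    rw [S.lin_eq, ← dist_eq_norm]
    exact hz
  have h7 := (h1.and (h3.and h5))
  rw [nhds_prod_eq, eventually_prod_iff] at h7
  obtain ⟨pa, ha, pb, hb, hab⟩ := h7
  obtain ⟨r, hr, hrb⟩ := Metric.eventually_nhds_iff_ball.1 hb
  refine ⟨r, hr, ha.mono fun y hy t ht => ?_⟩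
  have := hab hy (hrb t ht)
  exact ⟨this.1, this.2.1, this.2.2⟩

/-- the integral along the leaf `y` -/
theorem integral_leaf {y : E2} {r : ℝ} (hr : ∀ t ∈ ball (0 : E2) r,
    (y, t) ∈ S.W ∧ S.en y t ≠ L.em x0 ∧
    ‖fderiv ℝ (S.ψ y) t - (S.lin : E2 →L[ℝ] E2)‖
      ≤ 1 / (2 * (‖(S.lin.symm : E2 →L[ℝ] E2)‖ + 1))) {f : E2 → ℝ} (hf : Continuous f) :
    ∫ t in ball (0 : E2) r, f (S.co.x (S.en y t)) * Real.exp (S.ρ y t + A.h * S.w y t)
      = ∫ η in L.e (S.fr y) '' (S.ψ y '' ball 0 r), f (S.co.x η) ∂A.ν := by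
  set U := S.ψ y '' ball (0 : E2) r with hU
  have hd : ∀ t ∈ ball (0 : E2) r, DifferentiableAt ℝ (S.ψ y) t := fun t ht =>
    S.ψ_jc.differentiableAt (p := (y, t)) (hr t ht).1
  have hinj : InjOn (S.ψ y) (ball (0 : E2) r) := by
    intro t ht t' ht' h
    have := antilip_of_close hd (fun t ht => (hr t ht).2.2) ht ht'
    rw [h, sub_self, norm_zero, mul_zero] at this
    exact sub_eq_zero.1 (norm_le_zero_iff.1 this)
  have hcont : ContinuousOn (S.ψ y) (ball (0 : E2) r) := fun t ht =>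
    (hd t ht).continuousAt.continuousWithinAt
  have hUm : MeasurableSet U := measurableSet_ball.image_of_continuousOn_injOn hcont hinj
  have hUs : U ⊆ ball (0 : E2) 3 := by
    rintro _ ⟨t, ht, rfl⟩
    exact S.ψ_mem (y, t) (hr t ht).1
  have hen : ∀ t ∈ ball (0 : E2) r, L.e (S.fr y) (S.ψ y t) = S.en y t := fun t ht =>
    S.ψ_e (y, t) (hr t ht).1
  have hne : L.e (S.fr y) '' U ⊆ {L.em x0}ᶜ := by
    rintro _ ⟨_, ⟨t, ht, rfl⟩, rfl⟩
    rw [hen t ht]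
    exact (hr t ht).2.1
  have hG : AEStronglyMeasurable (fun η => f (S.co.x η)) (A.ν.restrict (L.e (S.fr y) '' U)) :=
    ((hf.comp_continuousOn S.co.cont).mono hne).aestronglyMeasurable (measurable_e_image _ hUm hUs)
  rw [← integral_chart A (S.fr y) hUm hUs hG, hU,
    integral_image_eq_integral_abs_det_fderiv_smul volume measurableSet_ball
      (fun t ht => (hd t ht).hasFDerivAt.hasFDerivWithinAt) hinj]
  refine setIntegral_congr_fun measurableSet_ball fun t ht => ?_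
  have hW := (hr t ht).1
  have n1 : 0 < A.s (S.fr y) (S.ψ y t) := A.s_pos _ _ (S.ψ_mem (y, t) hW)
  have n2 : (fderiv ℝ (S.ψ y) t).det ≠ 0 := S.det_ne (z := (y, t)) hW
  have e1 : Real.exp (S.ρ y t + A.h * S.w y t) = |(fderiv ℝ (S.ψ y) t).det| *
      (Real.exp (A.h * A.D (L.em (S.fr y)) (S.en y t)) *
        (Real.exp (-A.h * L.lv (S.fr y)) * A.s (S.fr y) (S.ψ y t))) := by
    have hD : A.D (L.em (S.fr y)) (S.en y t) = S.u y t + S.w y t := by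
      rw [S.em_fr]
      exact S.D_eq (y, t) hW
    have hρ : S.ρ y t + A.h * S.w y t = Real.log |(fderiv ℝ (S.ψ y) t).det|
        + (A.h * (S.u y t + S.w y t) + (-A.h * L.lv (S.fr y)
          + Real.log (A.s (S.fr y) (S.ψ y t)))) := by
      unfold ρ
      ring
    rw [hD, hρ, Real.exp_add, Real.exp_log (abs_pos.2 n2), Real.exp_add, Real.exp_add,
      Real.exp_log n1]
  simp only [smul_eq_mul, hen t ht]
  rw [e1]
  ring

/-- the images of the discs contain a fixed neighbourhood -/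
theorem exists_cover {r : ℝ} (hr0 : 0 < r) (hr : ∀ᶠ y in 𝓝 (0 : E2), ∀ t ∈ ball (0 : E2) r,
    (y, t) ∈ S.W ∧ S.en y t ≠ L.em x0 ∧
    ‖fderiv ℝ (S.ψ y) t - (S.lin : E2 →L[ℝ] E2)‖
      ≤ 1 / (2 * (‖(S.lin.symm : E2 →L[ℝ] E2)‖ + 1))) :
    ∃ r₀ > 0, ∀ᶠ y in 𝓝 (0 : E2), S.co.inv '' ball 0 r₀ ⊆ L.e (S.fr y) '' (S.ψ y '' ball 0 r) := by
  set c := r / (8 * (‖(S.lin.symm : E2 →L[ℝ] E2)‖ + 1)) with hc
  have hc0 : 0 < c := by positivity
  -- `ψ y 0 → 0`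
  have h1 : ∀ᶠ y in 𝓝 (0 : E2), ‖S.ψ y 0‖ < c / 2 := by
    have h2 : ContinuousAt (fun z : E2 × E2 => S.ψ z.1 z.2) (0, 0) :=
      S.ψ_cont.continuousAt (S.W_nhds S.W_mem)
    have h3 : Tendsto (fun y : E2 => ((y, 0) : E2 × E2)) (𝓝 0) (𝓝 (0, 0)) :=
      (by fun_prop : Continuous fun y : E2 => ((y, 0) : E2 × E2)).tendsto 0
    have h4 := (h2.tendsto.comp h3).norm
    simp only [S.ψ_zero, norm_zero] at h4
    exact h4.eventually (Iio_mem_nhds (by positivity))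
  -- the inverse charts
  have h5 : ∀ᶠ p : E2 × E2 in 𝓝 (0, 0), S.co.inv p.2 ∈ L.e (S.fr p.1) '' ball (0 : E2) 3 ∧
      ‖ei L (S.fr p.1) (S.co.inv p.2)‖ < c / 2 := by
    have k1 : Continuous fun p : E2 × E2 => ((S.fr p.1, S.co.inv p.2) : X × B) := by
      have := S.fr_cont
      have := S.co.inv_cont
      fun_prop
    have k2 : L.ep x0 ∈ L.e x0 '' ball (0 : E2) 3 := ⟨0, mem_ball0, L.e_zero x0⟩
    have k0 : (S.fr (0 : E2), S.co.inv (0 : E2)) ∈ {p : X × B | p.2 ∈ L.e p.1 '' ball 0 3} := by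
      rw [S.fr_zero, S.co.inv_zero]
      exact k2
    have k3 : ∀ᶠ p : E2 × E2 in 𝓝 (0, 0), S.co.inv p.2 ∈ L.e (S.fr p.1) '' ball (0 : E2) 3 :=
      k1.continuousAt.tendsto.eventually (L.e_open.mem_nhds k0)
    have k4 : ContinuousAt (fun p : X × B => ei L p.1 p.2) (x0, L.ep x0) := by
      refine (inv_cont L).continuousAt ?_
      refine mem_of_superset (L.e_open.mem_nhds (show (x0, L.ep x0) ∈ _ from k2)) ?_
      rintro p ⟨u, hu, h⟩
      exact ⟨u, ball_sub hu, h⟩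
    have k5 : Tendsto (fun p : E2 × E2 => ‖ei L (S.fr p.1) (S.co.inv p.2)‖) (𝓝 (0, 0)) (𝓝 0) := by
      have k6 : Tendsto (fun p : E2 × E2 => ((S.fr p.1, S.co.inv p.2) : X × B)) (𝓝 (0, 0))
          (𝓝 (x0, L.ep x0)) := by
        have := k1.tendsto ((0 : E2), (0 : E2))
        simpa only [S.fr_zero, S.co.inv_zero] using this
      have k7 := (k4.tendsto.comp k6).norm
      have k8 : ei L x0 (L.ep x0) = 0 := by
        rw [← L.e_zero x0]
        exact ei_eq mem_cball0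
      simpa only [Function.comp_def, k8, norm_zero] using k7
    exact k3.and (k5.eventually (Iio_mem_nhds (by positivity)))
  rw [nhds_prod_eq, eventually_prod_iff] at h5
  obtain ⟨pa, ha, pb, hb, hab⟩ := h5
  obtain ⟨r₀, hr₀, hrb⟩ := Metric.eventually_nhds_iff_ball.1 hb
  refine ⟨r₀, hr₀, ?_⟩
  filter_upwards [hr, h1, ha] with y hy hy1 hya
  rintro _ ⟨z, hz, rfl⟩
  obtain ⟨m1, m2⟩ := hab hya (hrb z hz)
  have hd : ∀ t ∈ ball (0 : E2) r, DifferentiableAt ℝ (S.ψ y) t := fun t ht =>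
    S.ψ_jc.differentiableAt (p := (y, t)) (hy t ht).1
  obtain ⟨t, ht, ht2⟩ := surj_of_close hr0 hd (fun t ht => (hy t ht).2.2)
    (q := ei L (S.fr y) (S.co.inv z)) (by
      calc ‖ei L (S.fr y) (S.co.inv z) - S.ψ y 0‖
          ≤ ‖ei L (S.fr y) (S.co.inv z)‖ + ‖S.ψ y 0‖ := norm_sub_le _ _
        _ < c / 2 + c / 2 := add_lt_add m2 hy1
        _ = c := by ring)
  refine ⟨_, ⟨t, ht, rfl⟩, ?_⟩
  rw [ht2, e_ei (image_mono ball_sub m1)]

/-- **the holonomy**: the measures `e^{ρ + h w} dt` of all the leaves are the same measure of the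
boundary -/
theorem hol : ∀ᶠ r₁ in 𝓝[>] (0 : ℝ), ∃ r₀ > 0, ∀ᶠ y in 𝓝 (0 : E2), ∀ f : E2 → ℝ, Continuous f →
    tsupport f ⊆ ball 0 r₀ →
    ∫ t in ball (0 : E2) r₁, f (S.co.x (S.en y t)) * Real.exp (S.ρ y t + A.h * S.w y t)
      = ∫ t in ball (0 : E2) r₁, f (S.co.x (S.en 0 t)) * Real.exp (S.ρ 0 t + A.h * S.w 0 t) := by
  obtain ⟨r, hr0, hr⟩ := S.exists_good
  have hev : ∀ᶠ r₁ in 𝓝[>] (0 : ℝ), r₁ ∈ Ioo 0 r := Ioo_mem_nhdsGT hr0
  filter_upwards [hev] with r₁ hr₁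
  have hg : ∀ᶠ y in 𝓝 (0 : E2), ∀ t ∈ ball (0 : E2) r₁,
      (y, t) ∈ S.W ∧ S.en y t ≠ L.em x0 ∧
      ‖fderiv ℝ (S.ψ y) t - (S.lin : E2 →L[ℝ] E2)‖
        ≤ 1 / (2 * (‖(S.lin.symm : E2 →L[ℝ] E2)‖ + 1)) :=
    hr.mono fun y hy t ht => hy t (ball_subset_ball hr₁.2.le ht)
  obtain ⟨r₀, hr₀, hcov⟩ := S.exists_cover hr₁.1 hg
  refine ⟨r₀, hr₀, ?_⟩
  have key : ∀ y : E2, (∀ t ∈ ball (0 : E2) r₁,
      (y, t) ∈ S.W ∧ S.en y t ≠ L.em x0 ∧
      ‖fderiv ℝ (S.ψ y) t - (S.lin : E2 →L[ℝ] E2)‖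
        ≤ 1 / (2 * (‖(S.lin.symm : E2 →L[ℝ] E2)‖ + 1))) →
      S.co.inv '' ball 0 r₀ ⊆ L.e (S.fr y) '' (S.ψ y '' ball 0 r₁) →
      ∀ f : E2 → ℝ, Continuous f → tsupport f ⊆ ball 0 r₀ →
      ∫ t in ball (0 : E2) r₁, f (S.co.x (S.en y t)) * Real.exp (S.ρ y t + A.h * S.w y t)
        = ∫ η in S.co.inv '' ball 0 r₀, f (S.co.x η) ∂A.ν := by
    intro y h1 h2 f hf hfs
    rw [S.integral_leaf h1 hf]
    refine (setIntegral_eq_of_subset_of_forall_sdiff_eq_zero ?_ h2 ?_)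
    · have hd : ∀ t ∈ ball (0 : E2) r₁, DifferentiableAt ℝ (S.ψ y) t := fun t ht =>
        S.ψ_jc.differentiableAt (p := (y, t)) (h1 t ht).1
      have hinj : InjOn (S.ψ y) (ball (0 : E2) r₁) := by
        intro t ht t' ht' h
        have := antilip_of_close hd (fun t ht => (h1 t ht).2.2) ht ht'
        rw [h, sub_self, norm_zero, mul_zero] at this
        exact sub_eq_zero.1 (norm_le_zero_iff.1 this)
      have hcont : ContinuousOn (S.ψ y) (ball (0 : E2) r₁) := fun t ht =>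
        (hd t ht).continuousAt.continuousWithinAt
      refine measurable_e_image _ (measurableSet_ball.image_of_continuousOn_injOn hcont hinj) ?_
      rintro _ ⟨t, ht, rfl⟩
      exact S.ψ_mem (y, t) (h1 t ht).1
    · rintro _ ⟨⟨_, ⟨t, ht, rfl⟩, rfl⟩, hn⟩
      have e1 : L.e (S.fr y) (S.ψ y t) = S.en y t := S.ψ_e (y, t) (h1 t ht).1
      rw [e1] at hn ⊢
      by_contra hne
      refine hn ⟨S.co.x (S.en y t), hfs (subset_tsupport f hne), ?_⟩
      exact S.co.inv_left _ (h1 t ht).2.1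
  have h0 := hg.self_of_nhds
  have hc0 := hcov.self_of_nhds
  filter_upwards [hg, hcov] with y hy1 hy2 f hf hfs
  rw [key y hy1 hy2 f hf hfs, key 0 h0 hc0 f hf hfs]

end Dens

end Vale.Agent.P207.N3.H229
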