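import Vale.Agent.P207.N3.H229.GeoDens
import Vale.Agent.P207.N3.H722.Lab

/-!
# P207, line N3, package PF3: the densities at a closed orbit: the literal fields of `PFIn`
-/

open Set Filter Topology Metric MeasureTheory
open scoped ContDiff

set_option linter.unusedSectionVars false

noncomputable section

namespace Vale.Agent.P207.N3.H229

open Vale.Agent.P207.N3.Ten
open Vale.Agent.P207.N3.H722 (GeoIn HessIn invThm flip_neg flip_pos)
open Vale.Agent.P207.N3.H722.GeoIn (xip)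
open Vale.Agent.P207.N3.H76 (pk tl e0 sg)

variable {Γ X B : Type} [Group Γ] [MetricSpace X] [ProperSpace X] [MulAction Γ X]
  [IsIsometricSMul Γ X] [TopologicalSpace B] [CompactSpace B] [T2Space B] [MulAction Γ B]
  [ContinuousConstSMul Γ B] {L : Leaf Γ X B} [MeasurableSpace B] [BorelSpace B]

/-! ### general lemmas -/

theorem ev_slice {p : E2 × E2 → Prop} {z : E2 × E2} (h : ∀ᶠ z' in 𝓝 z, p z') :
    ∀ᶠ t' in 𝓝 z.2, p (z.1, t') := by
  have hc : ContinuousAt (fun t : E2 => ((z.1, t) : E2 × E2)) z.2 := by fun_prop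
  exact hc.tendsto.eventually h

namespace Dens

variable {A : Area L} {x0 : X} (S : Dens A x0)

/-- the transformation rule of the density under the Poincaré map -/
theorem rho_inv (g : Γ) {F : E2 × E2 → E2} {N' : E2 → E2} {ℓ : E2 × E2 → ℝ} {c : E2 → ℝ}
    (hlab : ∀ y, g • S.lab y = S.lab (N' y)) (hN0 : N' 0 = 0) (hNc : ContinuousAt N' 0)
    (hF0 : F 0 = 0) (hFc : ContinuousAt F 0)
    (hFd : ∀ᶠ z in 𝓝 (0 : E2 × E2), DifferentiableAt ℝ (fun t => F (z.1, t)) z.2)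
    (hen : ∀ᶠ z in 𝓝 (0 : E2 × E2), S.en (N' z.1) (F z) = g • S.en z.1 z.2)
    (hu : ∀ᶠ z in 𝓝 (0 : E2 × E2), S.u (N' z.1) (F z) = S.u z.1 z.2 + ℓ z + c z.1) :
    ∃ c' : E2 → ℝ, ∀ᶠ z in 𝓝 (0 : E2 × E2),
      S.ρ (N' z.1) (F z) + Real.log |(fderiv ℝ (fun t => F (z.1, t)) z.2).det|
        = S.ρ z.1 z.2 + A.h * ℓ z + c' z.1 := by
  refine ⟨fun y => A.h * c y - A.h * (L.lv (g • S.fr y) - L.lv (S.fr y)), ?_⟩
  have hW : ∀ᶠ z : E2 × E2 in 𝓝 0, z ∈ S.W := S.W_nhds S.W_mem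
  have hc : ContinuousAt (fun z : E2 × E2 => ((N' z.1, F z) : E2 × E2)) 0 := by
    refine ContinuousAt.prodMk ?_ hFc
    exact ContinuousAt.comp (f := fun z : E2 × E2 => z.1) hNc continuous_fst.continuousAt
  have hW' : ∀ᶠ z : E2 × E2 in 𝓝 0, (N' z.1, F z) ∈ S.W := by
    refine hc.tendsto.eventually (S.W_nhds ?_)
    have : ((N' (0 : E2 × E2).1, F 0) : E2 × E2) = ((0 : E2), (0 : E2)) := by
      rw [hF0]
      exact Prod.ext hN0 rfl
    rw [this]
    exact S.W_mem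
  filter_upwards [hW, hW', hFd, hen.eventually_nhds, hu] with z h1 h2 h3 h4 h5
  have h6 := S.ρ_map g (y := z.1) (y' := N' z.1) (t := z.2) (F := fun t => F (z.1, t))
    (hlab z.1) h3 h1 h2 (ev_slice h4)
  have h7 : F (z.1, z.2) = F z := rfl
  simp only [h7] at h6
  rw [h6, h5]
  ring

/-- the holonomy, for functions which agree with the labels and the potentials near `0` -/
theorem hol_congr {Xh : E2 × E2 → E2} {wh : E2 × E2 → ℝ}
    (hx : ∀ᶠ z in 𝓝 (0 : E2 × E2), Xh z = S.co.x (S.en z.1 z.2))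
    (hw : ∀ᶠ z in 𝓝 (0 : E2 × E2), wh z = S.w z.1 z.2) :
    ∀ᶠ r₁ in 𝓝[>] (0 : ℝ), ∃ r₀ > 0, ∀ᶠ y in 𝓝 (0 : E2), ∀ f : E2 → ℝ, Continuous f →
      tsupport f ⊆ ball 0 r₀ →
      ∫ t in ball (0 : E2) r₁, f (Xh (y, t)) * Real.exp (S.ρ y t + A.h * wh (y, t))
        = ∫ t in ball (0 : E2) r₁, f (Xh (0, t)) * Real.exp (S.ρ 0 t + A.h * wh (0, t)) := by
  have h0 := hx.and hw
  rw [show (0 : E2 × E2) = ((0 : E2), (0 : E2)) from rfl, nhds_prod_eq, eventually_prod_iff] at h0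
  obtain ⟨pa, ha, pb, hb, hab⟩ := h0
  obtain ⟨r, hr, hrb⟩ := Metric.eventually_nhds_iff_ball.1 hb
  have hev : ∀ᶠ r₁ in 𝓝[>] (0 : ℝ), r₁ ∈ Ioo 0 r := Ioo_mem_nhdsGT hr
  filter_upwards [S.hol, hev] with r₁ h1 hr₁
  obtain ⟨r₀, hr₀, h2⟩ := h1
  refine ⟨r₀, hr₀, ?_⟩
  have key : ∀ y, pa y → ∀ f : E2 → ℝ,
      ∫ t in ball (0 : E2) r₁, f (Xh (y, t)) * Real.exp (S.ρ y t + A.h * wh (y, t))
        = ∫ t in ball (0 : E2) r₁, f (S.co.x (S.en y t)) * Real.exp (S.ρ y t + A.h * S.w y t) := by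
    intro y hy f
    refine setIntegral_congr_fun measurableSet_ball fun t ht => ?_
    obtain ⟨h3, h4⟩ := hab hy (hrb t (ball_subset_ball hr₁.2.le ht))
    simp only [h3, h4]
  filter_upwards [h2, ha] with y hy1 hy2 f hf hfs
  rw [key y hy2 f, key 0 ha.self_of_nhds f]
  exact hy1 f hf hfs

end Dens

/-! ### the densities at a closed orbit -/

variable {V : Type} [NormedAddCommGroup V] [NormedSpace ℝ V] [FiniteDimensional ℝ V]
  (I : GeoIn L V) (A : Area L) (o : Orb L) (n : Nor L o) (n' : Nor L o.flip) (M : E2 ≃L[ℝ] E2)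

/-- the unstable leaves (labels `y`) -/
def dY : Dens A o.x :=
  mkDens I A (coNor A n (ContinuousLinearEquiv.refl ℝ E2))
    (GeoIn.xip_cont o n' M) (GeoIn.xip_zero o n' M)
    fun y => by
      have h := n'.inv_ne (M.symm y)
      rw [flip_neg] at h
      exact h

/-- the stable leaves (labels `x`) -/
def dX : Dens A (L.flip o.x) :=
  mkDens I A (x₀ := L.flip o.x) (coNor A n' M) n.inv_cont
    (by rw [H722.inv_zero]; exact L.ep_flip o.x)
    fun x => by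
      have h := n.inv_ne x
      rw [GeoIn.ep_flip']
      exact h

/-- the density of the unstable leaves -/
def rY (y t : E2) : ℝ := (dY I A o n n' M).ρ y t

/-- the density of the stable leaves -/
def rX (x t : E2) : ℝ := (dX I A o n n' M).ρ x t

/-- the domains -/
def WY : Set (E2 × E2) := (dY I A o n n' M).W

def WX : Set (E2 × E2) := (dX I A o n n' M).W

theorem WY_mem : ((0 : E2), (0 : E2)) ∈ WY I A o n n' M := (dY I A o n n' M).W_mem

theorem WX_mem : ((0 : E2), (0 : E2)) ∈ WX I A o n n' M := (dX I A o n n' M).W_mem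

theorem rY_jc : JC (rY I A o n n' M) (WY I A o n n' M) := (dY I A o n n' M).ρ_jc

theorem rX_jc : JC (rX I A o n n' M) (WX I A o n n' M) := (dX I A o n n' M).ρ_jc

/-- the disc of the reversed orbit -/
theorem D_flip {t : E2} (ht : t ∈ ball (0 : E2) I.S.R) : I.D (L.flip o.x) t = I.D o.x t :=
  I.A_flip o.x t ht

theorem ev_R : ∀ᶠ t in 𝓝 (0 : E2), t ∈ ball (0 : E2) I.S.R := isOpen_ball.mem_nhds I.S.zero_mem

theorem dens_Y : ∃ c, ∀ᶠ t in 𝓝 (0 : E2), Real.log |(fderiv ℝ (GeoIn.th o n) t).det|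
    = rY I A o n n' M 0 t - A.h * I.uu o n' M 0 t + c := by
  obtain ⟨c, hc⟩ := (dY I A o n n' M).dens
  refine ⟨c, ?_⟩
  filter_upwards [hc, GeoIn.ev_closedBall.eventually_nhds] with t h1 h2
  have h3 : GeoIn.th o n =ᶠ[𝓝 t]
      fun t => (dY I A o n n' M).co.x ((dY I A o n n' M).en 0 t) := by
    filter_upwards [h2] with t' ht'
    change n.x (L.e o.x t') = n.x (I.S.line (xip o n' M 0) (I.D o.x t'))
    rw [GeoIn.xip_zero, I.line_neg_D o ht']
  rw [h3.fderiv_eq, h1]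
  rfl

theorem dens_X : ∃ c, ∀ᶠ t in 𝓝 (0 : E2), Real.log |(fderiv ℝ (GeoIn.th' o n' M) t).det|
    = rX I A o n n' M 0 t - A.h * I.ss o n 0 t + c := by
  obtain ⟨c, hc⟩ := (dX I A o n n' M).dens
  refine ⟨c, ?_⟩
  filter_upwards [hc, (GeoIn.ev_closedBall.and (ev_R I)).eventually_nhds] with t h1 h2
  have h3 : GeoIn.th' o n' M =ᶠ[𝓝 t]
      fun t => (dX I A o n n' M).co.x ((dX I A o n n' M).en 0 t) := by
    filter_upwards [h2] with t' ht'
    change M (n'.x (L.e (L.flip o.x) t'))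
      = M (n'.x (I.S.line (n.inv 0) (I.D (L.flip o.x) t')))
    rw [H722.inv_zero, D_flip I o ht'.2, I.line_pos_D o ht'.1]
  rw [h3.fderiv_eq, h1]
  change rX I A o n n' M 0 t - A.h * I.b (n.inv 0) (I.D (L.flip o.x) t) + c = _
  rw [D_flip I o h2.self_of_nhds.2]
  rfl

/-! ### the labels of the opposite leaves -/

theorem lineD_contAt {c : E2 → B} (hc : Continuous c) :
    ContinuousAt (fun z : E2 × E2 => I.S.line (c z.1) (I.D o.x z.2)) 0 := by
  have h1 : ContinuousAt (fun z : E2 × E2 => ((c z.1, I.D o.x z.2) : B × V)) 0 := by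
    refine (hc.comp continuous_fst).continuousAt.prodMk ?_
    have h2 : ContinuousAt (I.D o.x) ((fun z : E2 × E2 => z.2) 0) := I.D_contAt o.x
    exact h2.comp continuous_snd.continuousAt
  exact ContinuousAt.comp (g := fun p : B × V => I.S.line p.1 p.2) I.S.line_cont.continuousAt h1

theorem line_ne_neg : ∀ᶠ z in 𝓝 (0 : E2 × E2),
    I.S.line (xip o n' M z.1) (I.D o.x z.2) ≠ o.neg := by
  refine (lineD_contAt I o (GeoIn.xip_cont o n' M)).eventually_ne ?_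
  change I.S.line (xip o n' M 0) (I.D o.x 0) ≠ o.neg
  rw [GeoIn.xip_zero, I.line_neg_D o (mem_closedBall_self (by norm_num)), L.e_zero]
  exact o.neg_ne_pos.symm

theorem line_ne_pos : ∀ᶠ z in 𝓝 (0 : E2 × E2),
    I.S.line (n.inv z.1) (I.D o.x z.2) ≠ o.pos := by
  refine (lineD_contAt I o n.inv_cont).eventually_ne ?_
  change I.S.line (n.inv 0) (I.D o.x 0) ≠ o.pos
  rw [H722.inv_zero, I.line_pos_D o (mem_closedBall_self (by norm_num)), L.e_zero,
    GeoIn.ep_flip']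
  exact o.neg_ne_pos

theorem xh_lf : ∀ᶠ z in 𝓝 (0 : E2 × E2), I.xh o n (lf (I.uu o n' M) z)
    = n.x (I.S.line (xip o n' M z.1) (I.D o.x z.2)) := by
  filter_upwards [I.vv_lf o n' M] with z hz
  rw [GeoIn.xh, hz]
  change n.x (I.xi (I.D o.x z.2, -I.vel (xip o n' M z.1) (I.D o.x z.2))) = _
  rw [← I.vel_line invThm, I.xi_vel]

theorem ss_xh : ∀ᶠ z in 𝓝 (0 : E2 × E2), I.ss o n (I.xh o n (lf (I.uu o n' M) z)) z.2
    = I.b (I.S.line (xip o n' M z.1) (I.D o.x z.2)) (I.D o.x z.2) := by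
  filter_upwards [xh_lf I o n n' M, line_ne_neg I o n' M] with z h1 h2
  rw [h1, GeoIn.ss, n.inv_left _ h2]

theorem yh_lf' : ∀ᶠ z in 𝓝 (0 : E2 × E2), I.yh o n' M (lf' (I.ss o n) z)
    = M (n'.x (I.S.line (n.inv z.1) (I.D o.x z.2))) := by
  filter_upwards [I.vv_lf' o n] with z hz
  rw [GeoIn.yh, hz]
  change M (n'.x (I.xi (I.D o.x z.2, -I.vel (n.inv z.1) (I.D o.x z.2)))) = _
  rw [← I.vel_line invThm, I.xi_vel]

theorem uu_yh : ∀ᶠ z in 𝓝 (0 : E2 × E2), I.uu o n' M (I.yh o n' M (lf' (I.ss o n) z)) z.2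
    = I.b (I.S.line (n.inv z.1) (I.D o.x z.2)) (I.D o.x z.2) := by
  filter_upwards [yh_lf' I o n n' M, line_ne_pos I o n] with z h1 h2
  rw [h1, GeoIn.uu, xip, M.symm_apply_apply, n'.inv_left]
  rwa [flip_neg]

/-- **stable holonomy** (field `hol` of `PFIn`) -/
theorem hol_Y : ∀ᶠ r₁ in 𝓝[>] (0 : ℝ), ∃ r₀ > 0, ∀ᶠ y in 𝓝 (0 : E2), ∀ f : E2 → ℝ,
    Continuous f → tsupport f ⊆ ball 0 r₀ →
    ∫ t in ball (0 : E2) r₁, f (I.xh o n (lf (I.uu o n' M) (y, t))) *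
        Real.exp (rY I A o n n' M y t
          + A.h * I.ss o n (I.xh o n (lf (I.uu o n' M) (y, t))) t)
      = ∫ t in ball (0 : E2) r₁, f (I.xh o n (lf (I.uu o n' M) (0, t))) *
        Real.exp (rY I A o n n' M 0 t
          + A.h * I.ss o n (I.xh o n (lf (I.uu o n' M) (0, t))) t) :=
  (dY I A o n n' M).hol_congr (Xh := fun z => I.xh o n (lf (I.uu o n' M) z))
    (wh := fun z => I.ss o n (I.xh o n (lf (I.uu o n' M) z)) z.2) (xh_lf I o n n' M)
    (ss_xh I o n n' M)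

/-- **unstable holonomy** (field `hol'` of `PFIn`) -/
theorem hol_X : ∀ᶠ r₁ in 𝓝[>] (0 : ℝ), ∃ r₀ > 0, ∀ᶠ x in 𝓝 (0 : E2), ∀ f : E2 → ℝ,
    Continuous f → tsupport f ⊆ ball 0 r₀ →
    ∫ t in ball (0 : E2) r₁, f (I.yh o n' M (lf' (I.ss o n) (x, t))) *
        Real.exp (rX I A o n n' M x t
          + A.h * I.uu o n' M (I.yh o n' M (lf' (I.ss o n) (x, t))) t)
      = ∫ t in ball (0 : E2) r₁, f (I.yh o n' M (lf' (I.ss o n) (0, t))) *
        Real.exp (rX I A o n n' M 0 t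
          + A.h * I.uu o n' M (I.yh o n' M (lf' (I.ss o n) (0, t))) t) := by
  refine (dX I A o n n' M).hol_congr (Xh := fun z => I.yh o n' M (lf' (I.ss o n) z))
    (wh := fun z => I.uu o n' M (I.yh o n' M (lf' (I.ss o n) z)) z.2) ?_ ?_
  · filter_upwards [yh_lf' I o n n' M, I.ev_ball] with z h1 h2
    rw [h1]
    change _ = M (n'.x (I.S.line (n.inv z.1) (I.D (L.flip o.x) z.2)))
    rw [D_flip I o h2]
  · filter_upwards [uu_yh I o n n' M, I.ev_ball] with z h1 h2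
    rw [h1]
    change _ = I.b (I.S.line (n.inv z.1) (I.D (L.flip o.x) z.2)) (I.D (L.flip o.x) z.2)
    rw [D_flip I o h2]

/-! ### invariance under the Poincaré map -/

theorem lf_diff {u : E2 → E2 → ℝ} (hu : JC u (univ ×ˢ ball 0 I.S.R)) :
    ∀ᶠ z in 𝓝 (0 : E2 × E2), DifferentiableAt ℝ (fun t => lf u (z.1, t)) z.2 := by
  filter_upwards [I.ev_ball] with z hz
  have h1 : DifferentiableAt ℝ (fderiv ℝ (u z.1)) z.2 :=
    hu.fderiv.differentiableAt (p := z) ⟨mem_univ _, hz⟩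
  have h2 : (fun t => lf u (z.1, t)) = fun t => (t, H722.cv (fderiv ℝ (u z.1) t)) :=
    funext fun t => by rw [← H722.gradient_eq]; rfl
  rw [h2]
  exact differentiableAt_id.prodMk (H722.cv.differentiableAt.comp z.2 h1)

theorem lf'_diff {s : E2 → E2 → ℝ} (hs : JC s (univ ×ˢ ball 0 I.S.R)) :
    ∀ᶠ z in 𝓝 (0 : E2 × E2), DifferentiableAt ℝ (fun t => lf' s (z.1, t)) z.2 := by
  filter_upwards [I.ev_ball] with z hz
  have h1 : DifferentiableAt ℝ (fderiv ℝ (s z.1)) z.2 :=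
    hs.fderiv.differentiableAt (p := z) ⟨mem_univ _, hz⟩
  have h2 : (fun t => lf' s (z.1, t)) = fun t => (t, -H722.cv (fderiv ℝ (s z.1) t)) :=
    funext fun t => by rw [← H722.gradient_eq]; rfl
  rw [h2]
  exact differentiableAt_id.prodMk (H722.cv.differentiableAt.comp z.2 h1).neg

/-- the return of the unstable leaf -/
theorem line_PY : ∀ᶠ z in 𝓝 (0 : E2 × E2),
    I.S.line (xip o n' M (GeoIn.N' o n' M z.1)) (I.D o.x (I.PP o (lf (I.uu o n' M) z)).1)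
      = o.β⁻¹ • I.S.line (xip o n' M z.1) (I.D o.x z.2) := by
  obtain ⟨-, -, -, -, -, -, h7⟩ := I.poin_spec o
  filter_upwards [I.vv_lf o n' M, (I.lf_tendsto o n' M).eventually h7] with z hz1 hz2
  obtain ⟨x, h1, h2, h2'⟩ := I.exists_frame (xip o n' M z.1) (I.D o.x z.2)
  have h3 : I.E x e0 = I.vv o.x (lf (I.uu o n' M) z) := by
    rw [hz1, ← I.vel_eq invThm, h1, h2]
  obtain ⟨h4, -⟩ := hz2 x h2 h3
  change I.S.line _ (I.D o.x (I.P1 o (lf (I.uu o n' M) z))) = _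
  rw [h4, GeoIn.xip_N', ← h2', ← h1]
  have h5 := I.line_eq (o.β⁻¹ • L.φ (I.pl o (lf (I.uu o n' M) z)) x)
  rw [L.em_smul, L.em_φ, GeoIn.ep_smul, GeoIn.ep_φ] at h5
  exact h5

/-- the return of the stable leaf -/
theorem line_PX : ∀ᶠ z in 𝓝 (0 : E2 × E2),
    I.S.line (n.inv (n.N.fn z.1)) (I.D o.x (I.PP o (lf' (I.ss o n) z)).1)
      = o.β⁻¹ • I.S.line (n.inv z.1) (I.D o.x z.2) := by
  obtain ⟨-, -, -, -, -, -, h7⟩ := I.poin_spec o
  filter_upwards [I.vv_lf' o n, (I.lf'_tendsto o n).eventually h7] with z hz1 hz2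
  obtain ⟨x, h1, h2, h1'⟩ := I.exists_frame (I.S.line (n.inv z.1) (I.D o.x z.2)) (I.D o.x z.2)
  rw [I.line_line] at h1'
  have h3 : I.E x e0 = I.vv o.x (lf' (I.ss o n) z) := by
    rw [hz1, ← I.vel_eq invThm, h1, h2, I.vel_line invThm]
  obtain ⟨h4, -⟩ := hz2 x h2 h3
  change I.S.line _ (I.D o.x (I.P1 o (lf' (I.ss o n) z))) = _
  have h5 := I.line_eq (L.flip (o.β⁻¹ • L.φ (I.pl o (lf' (I.ss o n) z)) x))
  rw [GeoIn.em_flip, GeoIn.ep_flip', I.ft_flip, L.em_smul, L.em_φ, GeoIn.ep_smul, GeoIn.ep_φ,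
    h1', h1, ← h4] at h5
  rw [GeoIn.inv_N, h5]

theorem P1_contAt : ContinuousAt (I.P1 o) 0 := (I.poin_spec o).1.self_of_nhds.continuousAt

/-- field `ρ_inv` of `PFIn` -/
theorem rho_inv_Y : ∃ c : E2 → ℝ, ∀ᶠ z in 𝓝 (0 : E2 × E2),
    rY I A o n n' M (GeoIn.N' o n' M z.1) (I.PP o (lf (I.uu o n' M) z)).1
      + Real.log |(fderiv ℝ (fun t => (I.PP o (lf (I.uu o n' M) (z.1, t))).1) z.2).det|
      = rY I A o n n' M z.1 z.2 + A.h * I.pl o (lf (I.uu o n' M) z) + c z.1 := by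
  obtain ⟨c, hc⟩ := I.P_leaf o n' M
  have hN0 : GeoIn.N' o n' M 0 = 0 := by
    rw [GeoIn.N', map_zero, H790.NF.inv_zero n'.ok, map_zero]
  have hNc : Continuous (GeoIn.N' o n' M) :=
    M.continuous.comp ((H790.NF.contDiff_inv n'.N).continuous.comp M.symm.continuous)
  have hl0 := I.lf_zero o n' M
  have hP0 : I.P1 o 0 = 0 := (I.poin_spec o).2.2.2.1
  refine (dY I A o n n' M).rho_inv o.β⁻¹ (F := fun z => (I.PP o (lf (I.uu o n' M) z)).1)
    (N' := GeoIn.N' o n' M) (ℓ := fun z => I.pl o (lf (I.uu o n' M) z)) (c := c)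
    (fun y => (GeoIn.xip_N' o n' M y).symm) hN0 hNc.continuousAt ?_ ?_ ?_ ?_ ?_
  · change I.P1 o (lf (I.uu o n' M) 0) = 0
    rw [hl0, hP0]
  · have h1 : ContinuousAt (I.P1 o) (lf (I.uu o n' M) 0) := by
      rw [hl0]
      exact P1_contAt I o
    exact ContinuousAt.comp (f := lf (I.uu o n' M)) h1 (I.lf_contAt o n' M)
  · filter_upwards [lf_diff I (I.uu_jc o n' M),
      (I.lf_tendsto o n' M).eventually (I.poin_spec o).1] with z h1 h2
    exact DifferentiableAt.comp z.2 (g := I.P1 o) (f := fun t => lf (I.uu o n' M) (z.1, t))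
      (h2.differentiableAt (by simp)) h1
  · exact line_PY I o n' M
  · exact hc.mono fun z hz => hz.2

/-- field `ρ'_inv` of `PFIn` -/
theorem rho_inv_X : ∃ c : E2 → ℝ, ∀ᶠ z in 𝓝 (0 : E2 × E2),
    rX I A o n n' M (n.N.fn z.1) (I.PP o (lf' (I.ss o n) z)).1
      + Real.log |(fderiv ℝ (fun t => (I.PP o (lf' (I.ss o n) (z.1, t))).1) z.2).det|
      = rX I A o n n' M z.1 z.2 - A.h * I.pl o (lf' (I.ss o n) z) + c z.1 := by
  obtain ⟨c, hc⟩ := I.P_leaf' o n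
  have hN0 : n.N.fn 0 = 0 := H790.NF.fn_zero n.ok
  have hNc : Continuous n.N.fn := (H790.NF.contDiff_fn n.N).continuous
  have hl0 := I.lf'_zero o n
  have hP0 : I.P1 o 0 = 0 := (I.poin_spec o).2.2.2.1
  have hFc : ContinuousAt (fun z => (I.PP o (lf' (I.ss o n) z)).1) 0 := by
    have h1 : ContinuousAt (I.P1 o) (lf' (I.ss o n) 0) := by
      rw [hl0]
      exact P1_contAt I o
    exact ContinuousAt.comp (f := lf' (I.ss o n)) h1 (I.lf'_contAt o n)
  have hF0 : (I.PP o (lf' (I.ss o n) 0)).1 = 0 := by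
    change I.P1 o (lf' (I.ss o n) 0) = 0
    rw [hl0, hP0]
  have hFR : ∀ᶠ z in 𝓝 (0 : E2 × E2), (I.PP o (lf' (I.ss o n) z)).1 ∈ ball (0 : E2) I.S.R :=
    hFc.tendsto.eventually (isOpen_ball.mem_nhds (by rw [hF0]; exact I.S.zero_mem))
  obtain ⟨c', hc'⟩ := (dX I A o n n' M).rho_inv o.β⁻¹
    (F := fun z => (I.PP o (lf' (I.ss o n) z)).1)
    (N' := n.N.fn) (ℓ := fun z => -I.pl o (lf' (I.ss o n) z)) (c := c)
    (fun x => (GeoIn.inv_N o n x).symm) hN0 hNc.continuousAt hF0 hFc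
    (by
      filter_upwards [lf'_diff I (I.ss_jc o n),
        (I.lf'_tendsto o n).eventually (I.poin_spec o).1] with z h1 h2
      exact DifferentiableAt.comp z.2 (g := I.P1 o) (f := fun t => lf' (I.ss o n) (z.1, t))
        (h2.differentiableAt (by simp)) h1)
    (by
      filter_upwards [line_PX I o n, hFR, I.ev_ball] with z h1 h2 h3
      change I.S.line (n.inv (n.N.fn z.1)) (I.D (L.flip o.x) (I.PP o (lf' (I.ss o n) z)).1)
        = o.β⁻¹ • I.S.line (n.inv z.1) (I.D (L.flip o.x) z.2)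
      rw [D_flip I o h2, D_flip I o h3, h1])
    (by
      filter_upwards [hc, hFR, I.ev_ball] with z h1 h2 h3
      change I.b (n.inv (n.N.fn z.1)) (I.D (L.flip o.x) (I.PP o (lf' (I.ss o n) z)).1)
        = I.b (n.inv z.1) (I.D (L.flip o.x) z.2) + -I.pl o (lf' (I.ss o n) z) + c z.1
      rw [D_flip I o h2, D_flip I o h3]
      have := h1.2
      change I.b (n.inv (n.N.fn z.1)) (I.D o.x (I.PP o (lf' (I.ss o n) z)).1)
        = I.b (n.inv z.1) (I.D o.x z.2) - I.pl o (lf' (I.ss o n) z) + c z.1 at this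
      rw [this, sub_eq_add_neg])
  refine ⟨c', hc'.mono fun z hz => ?_⟩
  change (dX I A o n n' M).ρ _ _ + _ = (dX I A o n n' M).ρ _ _ - _ + _
  rw [hz]
  ring

end Vale.Agent.P207.N3.H229
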